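import Vale.Agent.P267N.EDefs

/-! Theta series of positive unimodular forms. -/

open Complex Matrix MeasureTheory Filter
open scoped Real Topology

noncomputable section

namespace Vale.Agent.P267.Elk

variable {m : ℕ} {A : Matrix (Fin m) (Fin m) ℤ} {w : Fin m → ℤ}

theorem ea_cont (A : Matrix (Fin m) (Fin m) ℤ) : Continuous fun x => bf A x x := by
  unfold bf
  fun_prop

theorem ea_real (h : ∀ v, 0 ≤ v ⬝ᵥ A *ᵥ v) (x : Fin m → ℝ) : 0 ≤ bf A x x := by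
  have hd : DenseRange (Pi.map fun (_ : Fin m) (q : ℚ) => (q : ℝ)) :=
    DenseRange.piMap fun _ => Rat.denseRange_cast
  refine hd.induction_on x (isClosed_le continuous_const (ea_cont A)) fun q => ?_
  obtain ⟨b, hb⟩ := IsLocalization.exist_integer_multiples_of_finite (nonZeroDivisors ℤ) q
  choose v hv using hb
  have hb0 : ((b : ℤ) : ℝ) ≠ 0 := Int.cast_ne_zero.2 (nonZeroDivisors.coe_ne_zero b)
  have e : cz v = ((b : ℤ) : ℝ) • Pi.map (fun (_ : Fin m) (q : ℚ) => (q : ℝ)) q := by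
    funext i
    have h1 := congrArg (fun r : ℚ => (r : ℝ)) (hv i)
    simpa [cz] using h1
  have h2 : (0 : ℝ) ≤ bf A (cz v) (cz v) := by
    rw [bf_cz]
    exact_mod_cast h v
  rw [e, bf_smul_left, bf_smul_right, ← mul_assoc] at h2
  exact nonneg_of_mul_nonneg_right h2 (mul_self_pos.2 hb0)

theorem ea_coer (h : ∀ x, x ≠ 0 → 0 < bf A x x) :
    ∃ δ : ℝ, 0 < δ ∧ ∀ x, δ * ‖x‖ ^ 2 ≤ bf A x x := by
  obtain ⟨δ, hδ, H⟩ : ∃ δ : ℝ, 0 < δ ∧ ∀ x ∈ Metric.sphere (0 : Fin m → ℝ) 1, δ ≤ bf A x x :=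
    (isCompact_sphere 0 1).exists_forall_le' (ea_cont A).continuousOn fun x hx =>
      h x (ne_zero_of_mem_unit_sphere ⟨x, hx⟩)
  refine ⟨δ, hδ, fun x => ?_⟩
  rcases eq_or_ne x 0 with rfl | hx
  · simp [bf_zero_left]
  have h0 : 0 < ‖x‖ := norm_pos_iff.2 hx
  have h1 := H (‖x‖⁻¹ • x) (by simp [norm_smul, h0.ne'])
  rw [bf_smul_left, bf_smul_right] at h1
  have h2 := mul_le_mul_of_nonneg_right h1 (sq_nonneg ‖x‖)
  refine h2.trans_eq ?_
  field_simp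

theorem ch_of (hs : A.IsSymm) (hu : IsUnit A.det) (hw : w ⬝ᵥ A *ᵥ w = m)
    (hp : ∀ v, ∃ d : ℤ, 0 ≤ d ∧ 2 * d = v ⬝ᵥ A *ᵥ v - v ⬝ᵥ A *ᵥ w) : Ch A w := by
  have h0 : ∀ v, 0 ≤ v ⬝ᵥ A *ᵥ v := fun v => by
    obtain ⟨d, hd, e⟩ := hp v
    obtain ⟨d', hd', e'⟩ := hp (-v)
    rw [mulVec_neg, neg_dotProduct, neg_dotProduct, dotProduct_neg] at e'
    omega
  have h1 : (A.map (Int.cast : ℤ → ℝ)).PosSemidef :=
    .of_dotProduct_mulVec_nonneg (isHermitian_iff_isSymm.2 (hs.map _)) fun x => ea_real h0 x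
  have e : (A.map (Int.cast : ℤ → ℝ)).det = (A.det : ℝ) := (Int.cast_det A).symm
  have h2 : (A.map (Int.cast : ℤ → ℝ)).PosDef :=
    h1.posDef_iff_det_ne_zero.2 (e ▸ Int.cast_ne_zero.2 hu.ne_zero)
  have h3 : 0 < A.det := by
    have h4 := h2.det_pos
    rw [e] at h4
    exact_mod_cast h4
  refine ⟨⟨hs, ?_, ea_coer fun x hx => h2.dotProduct_mulVec_pos hx⟩, hw, hp⟩
  rcases Int.isUnit_iff.1 hu with h | h
  · exact h
  · omega

end Vale.Agent.P267.Elk
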