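import Vale.Agent.P267N.EDefs

/-! Theta series of positive unimodular forms. -/

open Complex Matrix MeasureTheory Filter
open scoped Real Topology

noncomputable section

namespace Vale.Agent.P267.Elk

variable {m : ℕ} {A : Matrix (Fin m) (Fin m) ℤ} {w : Fin m → ℤ}

theorem EB0_prod {δ : ℝ} (hδ : 0 < δ) (x : Fin m → ℝ) :
    Real.exp (-(δ * ‖x‖ ^ 2)) ≤ ∏ i, Real.exp (-(δ / (m + 1)) * x i ^ 2) := by
  rw [← Real.exp_sum, Real.exp_le_exp, ← Finset.mul_sum, neg_mul, neg_le_neg_iff]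
  have h1 : ∑ i, x i ^ 2 ≤ m * ‖x‖ ^ 2 := by
    have := Finset.sum_le_card_nsmul Finset.univ (fun i => x i ^ 2) (‖x‖ ^ 2) fun i _ => by
      rw [← sq_abs]
      exact pow_le_pow_left₀ (abs_nonneg _) (norm_le_pi_norm x i) 2
    simpa using this
  rw [div_mul_eq_mul_div, div_le_iff₀ (by positivity), mul_assoc]
  exact mul_le_mul_of_nonneg_left (by nlinarith [sq_nonneg ‖x‖]) hδ.le

theorem EB0_one {c : ℝ} (hc : 0 < c) : Summable fun k : ℤ => Real.exp (-c * (k : ℝ) ^ 2) := by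
  have h : Summable fun n : ℕ => Real.exp (-c * (n : ℝ) ^ 2) :=
    (Real.summable_exp_nat_mul_iff.2 (neg_lt_zero.2 hc)).of_nonneg_of_le
      (fun _ => (Real.exp_pos _).le) fun n => Real.exp_le_exp.2 (by
        have h1 : (n : ℝ) ≤ n ^ 2 := by exact_mod_cast Nat.le_self_pow two_ne_zero n
        nlinarith)
  exact Summable.of_nat_of_neg (by simpa using h) (by simpa using h)

theorem summ_gauss {δ : ℝ} (hδ : 0 < δ) :
    Summable fun v : Fin m → ℤ => Real.exp (-(δ * ‖cz v‖ ^ 2)) := by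
  have hc : 0 < δ / (m + 1) := by positivity
  refine Summable.of_nonneg_of_le (fun _ => (Real.exp_pos _).le) (fun v => EB0_prod hδ (cz v))
    (summable_of_sum_le (c := ∏ _i : Fin m, ∑' k : ℤ, Real.exp (-(δ / (m + 1)) * (k : ℝ) ^ 2))
      (fun v => Finset.prod_nonneg fun _ _ => (Real.exp_pos _).le) fun u => ?_)
  refine (Finset.sum_le_sum_of_subset_of_nonneg (t := Fintype.piFinset fun i => u.image (· i))
    (fun v hv => Fintype.mem_piFinset.2 fun i => Finset.mem_image_of_mem (· i) hv)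
    fun v _ _ => Finset.prod_nonneg fun _ _ => (Real.exp_pos _).le).trans ?_
  refine (Finset.prod_univ_sum (fun i => u.image (· i))
    fun _ (k : ℤ) => Real.exp (-(δ / (m + 1)) * (k : ℝ) ^ 2)).ge.trans ?_
  exact Finset.prod_le_prod (fun _ _ => Finset.sum_nonneg fun _ _ => (Real.exp_pos _).le)
    fun _ _ => (EB0_one hc).sum_le_tsum _ fun _ _ => (Real.exp_pos _).le

theorem int_gauss {δ : ℝ} (hδ : 0 < δ) :
    Integrable fun x : Fin m → ℝ => Real.exp (-(δ * ‖x‖ ^ 2)) := by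
  have hc : 0 < δ / (m + 1) := by positivity
  refine (Integrable.fintype_prod (f := fun (_ : Fin m) (t : ℝ) =>
    Real.exp (-(δ / (m + 1)) * t ^ 2)) fun _ => integrable_exp_neg_mul_sq hc).mono'
      (Continuous.aestronglyMeasurable (by fun_prop)) (Eventually.of_forall fun x => ?_)
  rw [Real.norm_of_nonneg (Real.exp_pos _).le]
  exact EB0_prod hδ x

theorem shift_gauss {δ : ℝ} (hδ : 0 < δ) (x a : Fin m → ℝ) :
    Real.exp (-(δ * ‖x + a‖ ^ 2)) ≤ Real.exp (δ * ‖a‖ ^ 2) * Real.exp (-(δ / 2 * ‖x‖ ^ 2)) := by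
  rw [← Real.exp_add, Real.exp_le_exp]
  have h1 : ‖x‖ ≤ ‖x + a‖ + ‖a‖ := by simpa using norm_sub_le (x + a) a
  have h2 : ‖x‖ ^ 2 ≤ 2 * ‖x + a‖ ^ 2 + 2 * ‖a‖ ^ 2 := by
    nlinarith [norm_nonneg x, sq_nonneg (‖x + a‖ - ‖a‖), pow_le_pow_left₀ (norm_nonneg x) h1 2]
  nlinarith

end Vale.Agent.P267.Elk
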