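import Vale.Agent.P267N.EDefs

/-! Theta series of positive unimodular forms. -/

open Complex Matrix MeasureTheory Filter
open scoped Real Topology

noncomputable section

namespace Vale.Agent.P267.Elk

variable {m : ℕ} {A : Matrix (Fin m) (Fin m) ℤ} {w : Fin m → ℤ}


theorem eb1_lift {F : (Fin m → ℝ) → ℂ} (hc : Continuous F)
    (hp : ∀ x (v : Fin m → ℤ), F (x + cz v) = F x) :
    ∃ G : C(UnitAddTorus (Fin m), ℂ), ∀ x : Fin m → ℝ, G (fun i => x i) = F x := by
  have hq : IsOpenQuotientMap (Pi.map fun (_ : Fin m) (x : ℝ) => (x : UnitAddCircle)) :=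
    IsOpenQuotientMap.piMap fun _ => QuotientAddGroup.isOpenQuotientMap_mk
  choose s hs using hq.surjective
  have e : ∀ x : Fin m → ℝ, F (s fun i => x i) = F x := fun x => by
    have h : ∀ i, ∃ k : ℤ, (k : ℝ) = x i - s (fun i => x i) i := fun i => by
      obtain ⟨k, hk⟩ := AddSubgroup.mem_zmultiples_iff.1
        (QuotientAddGroup.eq.1 (congrFun (hs fun i => x i) i))
      exact ⟨k, by simpa [neg_add_eq_sub] using hk⟩
    choose v hv using h
    rw [← hp _ v]
    exact congrArg F (funext fun i => by simp [cz, hv])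
  refine ⟨⟨fun t => F (s t), hq.isQuotientMap.continuous_iff.2 (hc.congr fun x => (e x).symm)⟩, e⟩

theorem four_zero {F : (Fin m → ℝ) → ℂ} (hc : Continuous F)
    (hp : ∀ x (v : Fin m → ℤ), F (x + cz v) = F x)
    (hs : Summable fun j : Fin m → ℤ => ∫ x in {x : Fin m → ℝ | ∀ i, x i ∈ Set.Ioc (0 : ℝ) 1},
      F x * cexp (-(2 * π * I * (x ⬝ᵥ cz j : ℝ)))) :
    F 0 = ∑' j : Fin m → ℤ, ∫ x in {x : Fin m → ℝ | ∀ i, x i ∈ Set.Ioc (0 : ℝ) 1},
      F x * cexp (-(2 * π * I * (x ⬝ᵥ cz j : ℝ))) := by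

  obtain ⟨G, hG⟩ := eb1_lift hc hp
  have e : UnitAddTorus.mFourierCoeff G = fun j : Fin m → ℤ =>
      ∫ x in {x : Fin m → ℝ | ∀ i, x i ∈ Set.Ioc (0 : ℝ) 1},
        F x * cexp (-(2 * π * I * (x ⬝ᵥ cz j : ℝ))) := by
    funext j
    rw [UnitAddTorus.mFourierCoeff_eq_integral _ _ 0]
    simp only [Pi.zero_apply, zero_add, hG, smul_eq_mul]
    refine integral_congr_ae (ae_of_all _ fun x => ?_)
    simp only [UnitAddTorus.mFourier, ContinuousMap.coe_mk, fourier_coe_apply, ← Complex.exp_sum]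
    rw [mul_comm]
    congr 2
    simp only [dotProduct, cz, Pi.neg_apply]
    push_cast
    rw [Finset.mul_sum, ← Finset.sum_neg_distrib]
    exact Finset.sum_congr rfl fun i _ => by ring
  have h := UnitAddTorus.hasSum_mFourier_series_apply_of_summable (f := G) (e ▸ hs)
    fun i => ((0 : Fin m → ℝ) i : ℝ)
  rw [hG, e] at h
  rw [← h.tsum_eq]
  refine tsum_congr fun j => ?_
  simp [UnitAddTorus.mFourier]

end Vale.Agent.P267.Elk
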