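import Vale.Agent.P267N.EDefs

/-! Theta series of positive unimodular forms. -/

open Complex Matrix MeasureTheory Filter
open scoped Real Topology

noncomputable section

namespace Vale.Agent.P267.Elk

variable {m : ℕ} {A : Matrix (Fin m) (Fin m) ℤ} {w : Fin m → ℤ}

/-- The translated unit cubes. -/
def eb2_Q (v : Fin m → ℤ) : Set (Fin m → ℝ) := {x | ∀ i, x i ∈ Set.Ioc (v i : ℝ) (v i + 1)}

theorem eb2_meas (v : Fin m → ℤ) : MeasurableSet (eb2_Q v) := by
  have : eb2_Q v = ⋂ i, (fun x : Fin m → ℝ => x i) ⁻¹' Set.Ioc (v i : ℝ) (v i + 1) := by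
    ext x
    simp [eb2_Q]
  rw [this]
  exact MeasurableSet.iInter fun i => measurable_pi_apply i measurableSet_Ioc

theorem eb2_mem (v : Fin m → ℤ) (x : Fin m → ℝ) : x ∈ eb2_Q v ↔ v = fun i => ⌈x i⌉ - 1 := by
  rw [funext_iff]
  refine forall_congr' fun i => ?_
  rw [eq_sub_iff_add_eq, eq_comm, Int.ceil_eq_iff]
  simp

theorem eb2_sum {E : Type} [NormedAddCommGroup E] [NormedSpace ℝ E] {g : (Fin m → ℝ) → E}
    (hg : Integrable g) :
    HasSum (fun v : Fin m → ℤ => ∫ x in {x : Fin m → ℝ | ∀ i, x i ∈ Set.Ioc (0 : ℝ) 1},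
      g (x + cz v)) (∫ x, g x) := by
  have hU : (⋃ v : Fin m → ℤ, eb2_Q v) = Set.univ :=
    Set.eq_univ_of_forall fun x => Set.mem_iUnion.2 ⟨_, (eb2_mem _ x).2 rfl⟩
  have h := hasSum_integral_iUnion (μ := volume) (f := g) (fun v : Fin m → ℤ => eb2_meas v)
    (fun v v' hv => Set.disjoint_left.2 fun x h1 h2 =>
      hv (((eb2_mem v x).1 h1).trans ((eb2_mem v' x).1 h2).symm)) hg.integrableOn
  rw [hU, Measure.restrict_univ] at h
  have e : ∀ v : Fin m → ℤ, ∫ x in {x : Fin m → ℝ | ∀ i, x i ∈ Set.Ioc (0 : ℝ) 1},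
      g (x + cz v) = ∫ x in eb2_Q v, g x := fun v => by
    rw [← (measurePreserving_add_right volume (cz v)).setIntegral_preimage_emb
      (measurableEmbedding_addRight _) g (eb2_Q v)]
    congr 2
    ext x
    simp [eb2_Q, cz, add_comm (x _)]
  simpa only [e] using h

theorem unfold_cube {f : (Fin m → ℝ) → ℂ} (hf : Integrable f) :
    ∫ x in {x : Fin m → ℝ | ∀ i, x i ∈ Set.Ioc (0 : ℝ) 1}, ∑' v : Fin m → ℤ, f (x + cz v) =
      ∫ x, f x := by
  rw [← integral_tsum_of_summable_integral_norm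
    (fun v => (hf.comp_add_right (cz v)).integrableOn) (eb2_sum hf.norm).summable]
  exact (eb2_sum hf).tsum_eq

end Vale.Agent.P267.Elk
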