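import Vale.Agent.P267N.EB0
import Vale.Agent.P267N.EB1
import Vale.Agent.P267N.EB2

/-! Theta series of positive unimodular forms. -/

open Complex Matrix MeasureTheory Filter
open scoped Real Topology

noncomputable section

namespace Vale.Agent.P267.Elk

variable {m : ℕ} {A : Matrix (Fin m) (Fin m) ℤ} {w : Fin m → ℤ}

theorem EB3_cz_add (v v' : Fin m → ℤ) : cz (v + v') = cz v + cz v' := by
  funext i
  simp [cz]

theorem EB3_cont {f : (Fin m → ℝ) → ℂ} (hc : Continuous f) {C δ : ℝ} (hδ : 0 < δ)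
    (hb : ∀ x, ‖f x‖ ≤ C * Real.exp (-(δ * ‖x‖ ^ 2))) :
    Continuous fun x => ∑' v : Fin m → ℤ, f (x + cz v) := by
  have hC : 0 ≤ C := nonneg_of_mul_nonneg_left ((norm_nonneg _).trans (hb 0)) (Real.exp_pos _)
  refine continuous_iff_continuousAt.2 fun x₀ => ?_
  have h1 : ContinuousOn (fun x => ∑' v : Fin m → ℤ, f (x + cz v)) (Metric.ball 0 (‖x₀‖ + 1)) := by
    refine continuousOn_tsum (u := fun v : Fin m → ℤ =>
      C * (Real.exp (δ * (‖x₀‖ + 1) ^ 2) * Real.exp (-(δ / 2 * ‖cz v‖ ^ 2))))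
      (fun v => (hc.comp (continuous_id.add continuous_const)).continuousOn)
      (((summ_gauss (half_pos hδ)).mul_left _).mul_left _) fun v x hx => ?_
    refine (hb _).trans (mul_le_mul_of_nonneg_left ?_ hC)
    rw [add_comm x]
    refine (shift_gauss hδ (cz v) x).trans (mul_le_mul_of_nonneg_right ?_ (Real.exp_pos _).le)
    rw [mem_ball_zero_iff] at hx
    exact Real.exp_le_exp.2 (mul_le_mul_of_nonneg_left
      (pow_le_pow_left₀ (norm_nonneg _) hx.le 2) hδ.le)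
  exact h1.continuousAt (Metric.isOpen_ball.mem_nhds (by simp))

theorem EB3_per (x : Fin m → ℝ) (v j : Fin m → ℤ) :
    cexp (-(2 * π * I * ((x + cz v) ⬝ᵥ cz j : ℝ))) = cexp (-(2 * π * I * (x ⬝ᵥ cz j : ℝ))) := by
  have h1 : cz v ⬝ᵥ cz j = ((v ⬝ᵥ j : ℤ) : ℝ) := by simp [cz, dotProduct]
  have h2 : -(2 * π * I * ((x + cz v) ⬝ᵥ cz j : ℝ) : ℂ) =
      -(2 * π * I * (x ⬝ᵥ cz j : ℝ)) + ((-(v ⬝ᵥ j) : ℤ) : ℂ) * (2 * π * I) := by
    rw [add_dotProduct, h1, Complex.ofReal_add, Complex.ofReal_intCast, Int.cast_neg]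
    ring
  rw [h2, Complex.exp_add, Complex.exp_int_mul_two_pi_mul_I, mul_one]

theorem EB3_coef {f : (Fin m → ℝ) → ℂ} (hc : Continuous f) {C δ : ℝ} (hδ : 0 < δ)
    (hb : ∀ x, ‖f x‖ ≤ C * Real.exp (-(δ * ‖x‖ ^ 2))) (j : Fin m → ℤ) :
    ∫ x in {x : Fin m → ℝ | ∀ i, x i ∈ Set.Ioc (0 : ℝ) 1},
      (∑' v : Fin m → ℤ, f (x + cz v)) * cexp (-(2 * π * I * (x ⬝ᵥ cz j : ℝ))) =
      ∫ x, f x * cexp (-(2 * π * I * (x ⬝ᵥ cz j : ℝ))) := by
  have hg : Integrable fun x : Fin m → ℝ => f x * cexp (-(2 * π * I * (x ⬝ᵥ cz j : ℝ))) := by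
    refine Integrable.mono' ((int_gauss hδ).const_mul C) (Continuous.aestronglyMeasurable ?_)
      (Eventually.of_forall fun x => ?_)
    · refine hc.mul (Complex.continuous_exp.comp (Continuous.neg (continuous_const.mul ?_)))
      exact Complex.continuous_ofReal.comp (continuous_id.dotProduct continuous_const)
    · have h1 : -(2 * π * I * (x ⬝ᵥ cz j : ℝ) : ℂ) = ((-(2 * π * (x ⬝ᵥ cz j)) : ℝ) : ℂ) * I := by
        rw [Complex.ofReal_neg, Complex.ofReal_mul, Complex.ofReal_mul, Complex.ofReal_ofNat]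
        ring
      rw [norm_mul, h1, Complex.norm_exp_ofReal_mul_I, mul_one]
      exact hb x
  rw [← unfold_cube hg]
  refine integral_congr_ae (Eventually.of_forall fun x => ?_)
  simp only [EB3_per]
  rw [tsum_mul_right]

theorem poisson {f : (Fin m → ℝ) → ℂ} (hc : Continuous f) {C δ : ℝ} (hδ : 0 < δ)
    (hb : ∀ x, ‖f x‖ ≤ C * Real.exp (-(δ * ‖x‖ ^ 2)))
    (hs : Summable fun j : Fin m → ℤ => ∫ x, f x * cexp (-(2 * π * I * (x ⬝ᵥ cz j : ℝ)))) :
    ∑' v : Fin m → ℤ, f (cz v) =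
      ∑' j : Fin m → ℤ, ∫ x, f x * cexp (-(2 * π * I * (x ⬝ᵥ cz j : ℝ))) := by
  have h1 := four_zero (EB3_cont hc hδ hb) (fun x v => by
    rw [← (Equiv.addLeft v).tsum_eq fun v' : Fin m → ℤ => f (x + cz v')]
    refine tsum_congr fun v' => ?_
    rw [Equiv.coe_addLeft, EB3_cz_add, add_assoc]) (by
    simp only [EB3_coef hc hδ hb]
    exact hs)
  simp only [EB3_coef hc hδ hb, zero_add] at h1
  exact h1

end Vale.Agent.P267.Elk
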