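import Vale.Agent.P267N.EDefs

/-! Theta series of positive unimodular forms. -/

open Complex Matrix MeasureTheory Filter
open scoped Real Topology

noncomputable section

namespace Vale.Agent.P267.Elk

variable {m : ℕ} {A : Matrix (Fin m) (Fin m) ℤ} {w : Fin m → ℤ}

open scoped MatrixOrder in
theorem EC_root (h : Pos A) : ∃ B : Matrix (Fin m) (Fin m) ℝ, |B.det| = 1 ∧
    ∀ x y, bf A x y = (B *ᵥ x) ⬝ᵥ (B *ᵥ y) := by
  have hp : (A.map (Int.cast : ℤ → ℝ)).PosSemidef := by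
    refine .of_dotProduct_mulVec_nonneg ?_ fun x => ?_
    · rw [IsHermitian, conjTranspose_eq_transpose_of_trivial]
      exact h.symm.map _
    · obtain ⟨δ, hδ, H⟩ := h.coer
      rw [star_trivial]
      exact le_trans (by positivity) (H x)
  obtain ⟨B, hB⟩ := CStarAlgebra.nonneg_iff_eq_star_mul_self.mp hp.nonneg
  rw [star_eq_conjTranspose, conjTranspose_eq_transpose_of_trivial] at hB
  refine ⟨B, ?_, fun x y => ?_⟩
  · have h1 : (A.map (Int.cast : ℤ → ℝ)).det = 1 := by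
      rw [← Int.cast_det, h.det, Int.cast_one]
    rw [hB, det_mul, det_transpose] at h1
    rcases mul_self_eq_one_iff.1 h1 with e | e <;> simp [e]
  · rw [bf, hB, ← mulVec_mulVec, dotProduct_mulVec, vecMul_transpose]

theorem EC_sub {B : Matrix (Fin m) (Fin m) ℝ} (hB : |B.det| = 1) {F : (Fin m → ℝ) → ℂ}
    (hF : Continuous F) : ∫ x, F (B *ᵥ x) = ∫ z, F z := by
  have h0 : B.det ≠ 0 := fun e => by simp [e] at hB
  have h1 := Real.map_matrix_volume_pi_eq_smul_volume_pi h0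
  rw [abs_inv, hB, inv_one, ENNReal.ofReal_one, one_smul] at h1
  have h2 := integral_map (μ := volume) (φ := toLin' B) (f := F)
    (LinearMap.continuous_on_pi _).aemeasurable hF.aestronglyMeasurable
  rw [h1] at h2
  simpa only [toLin'_apply] using h2.symm

theorem EC_pow {t : ℝ} (ht : 0 < t) (m : ℕ) :
    ((π : ℂ) / (π * t)) ^ ((m : ℂ) / 2) = ((√t : ℝ) : ℂ)⁻¹ ^ m := by
  have hπ : (π : ℂ) ≠ 0 := ofReal_ne_zero.2 Real.pi_ne_zero
  have h1 : (π : ℂ) / (π * t) = ((t⁻¹ : ℝ) : ℂ) := by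
    rw [div_mul_cancel_left₀ hπ, ofReal_inv]
  have h2 : (m : ℂ) / 2 = (((1 / 2 : ℝ) * m : ℝ) : ℂ) := by
    push_cast
    ring
  rw [h1, h2, ← ofReal_cpow (inv_nonneg.2 ht.le), Real.rpow_mul_natCast (inv_nonneg.2 ht.le),
    ← Real.sqrt_eq_rpow, Real.sqrt_inv, ofReal_pow, ofReal_inv]

theorem Pos.gauss (h : Pos A) {t : ℝ} (ht : 0 < t) (a y : Fin m → ℝ) :
    ∫ x : Fin m → ℝ, cexp (-(π * t * bf A (x + a) (x + a))) * cexp (-(2 * π * I * bf A x y)) =
      ((√t : ℝ) : ℂ)⁻¹ ^ m * cexp (-(π * bf A y y / t) + 2 * π * I * bf A y a) := by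
  obtain ⟨B, hB, hb⟩ := EC_root h
  obtain ⟨G, hG⟩ : ∃ G : (Fin m → ℝ) → ℂ, G = fun z => cexp (-((π : ℂ) * t) *
    ∑ i, (z i : ℂ) ^ 2 + ∑ i, -(2 * π * I * ((B *ᵥ y) i : ℝ)) * (z i : ℂ)) := ⟨_, rfl⟩
  have hc : Continuous G := by
    rw [hG]
    fun_prop
  have e1 : ∀ x : Fin m → ℝ,
      cexp (-(π * t * bf A (x + a) (x + a))) * cexp (-(2 * π * I * bf A x y)) =
        G (B *ᵥ (x + a)) * cexp (2 * π * I * bf A y a) := fun x => by
    have h1 : bf A x y = bf A (x + a) y - bf A y a := by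
      rw [bf_add_left, bf_comm h.symm a y]
      ring
    have h2 : ((bf A (x + a) (x + a) : ℝ) : ℂ) = ∑ i, (((B *ᵥ (x + a)) i : ℝ) : ℂ) ^ 2 := by
      rw [hb, dotProduct, ofReal_sum]
      exact Finset.sum_congr rfl fun i _ => by rw [ofReal_mul, sq]
    have h3 : -(2 * π * I * ((bf A (x + a) y : ℝ) : ℂ)) =
        ∑ i, -(2 * π * I * ((B *ᵥ y) i : ℝ)) * (((B *ᵥ (x + a)) i : ℝ) : ℂ) := by
      rw [hb, dotProduct, ofReal_sum, Finset.mul_sum, ← Finset.sum_neg_distrib]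
      exact Finset.sum_congr rfl fun i _ => by rw [ofReal_mul]; ring
    rw [hG]
    beta_reduce
    rw [← h2, ← h3, h1, ← Complex.exp_add, ← Complex.exp_add, ofReal_sub]
    congr 1
    ring
  have hre : 0 < ((π : ℂ) * t).re := by
    rw [← ofReal_mul, ofReal_re]
    positivity
  simp_rw [e1]
  rw [integral_mul_const, integral_add_right_eq_self (fun x => G (B *ᵥ x)) a, EC_sub hB hc, hG,
    GaussianFourier.integral_cexp_neg_mul_sum_add hre, Fintype.card_fin, EC_pow ht, mul_assoc,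
    ← Complex.exp_add]
  congr 3
  have h4 : ∑ i, (-(2 * π * I * (((B *ᵥ y) i : ℝ) : ℂ))) ^ 2 =
      -(4 * (π : ℂ) ^ 2 * ((bf A y y : ℝ) : ℂ)) := by
    rw [hb, dotProduct, ofReal_sum, Finset.mul_sum, ← Finset.sum_neg_distrib]
    refine Finset.sum_congr rfl fun i _ => ?_
    rw [ofReal_mul]
    linear_combination (4 * (π : ℂ) ^ 2 * (((B *ᵥ y) i : ℝ) : ℂ) ^ 2) * I_sq
  have hπ : (π : ℂ) ≠ 0 := ofReal_ne_zero.2 Real.pi_ne_zero
  have ht' : (t : ℂ) ≠ 0 := ofReal_ne_zero.2 ht.ne'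
  rw [h4]
  field_simp

end Vale.Agent.P267.Elk
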