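import Vale.Agent.P267N.EB0

/-! Theta series of positive unimodular forms. -/

open Complex Matrix MeasureTheory Filter
open scoped Real Topology

noncomputable section

namespace Vale.Agent.P267.Elk

variable {m : ℕ} {A : Matrix (Fin m) (Fin m) ℤ} {w : Fin m → ℤ}

theorem norm_tm (a b : Fin m → ℝ) (τ : ℂ) (v : Fin m → ℤ) :
    ‖tm A a b τ v‖ = Real.exp (-(π * τ.im * bf A (cz v + a) (cz v + a))) := by
  rw [tm, Complex.norm_exp]
  congr 1
  simp

theorem Pos.summ (h : Pos A) (a : Fin m → ℝ) {y : ℝ} (hy : 0 < y) :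
    Summable fun v : Fin m → ℤ => Real.exp (-(π * y * bf A (cz v + a) (cz v + a))) := by
  obtain ⟨δ, hδ, H⟩ := h.coer
  have h0 : 0 < π * y := mul_pos Real.pi_pos hy
  have h1 : 0 < π * y * δ := mul_pos h0 hδ
  refine Summable.of_nonneg_of_le (fun _ => (Real.exp_pos _).le) (fun v => ?_)
    ((summ_gauss (m := m) (half_pos h1)).mul_left (Real.exp (π * y * δ * ‖a‖ ^ 2)))
  refine le_trans (Real.exp_le_exp.2 (neg_le_neg ?_)) (shift_gauss h1 (cz v) a)
  rw [mul_assoc (π * y)]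
  exact mul_le_mul_of_nonneg_left (H _) h0.le

theorem Pos.summ_tm (h : Pos A) (a b : Fin m → ℝ) {τ : ℂ} (hτ : τ ∈ Hp) :
    Summable (tm A a b τ) :=
  Summable.of_norm ((h.summ a hτ).congr fun v => (norm_tm a b τ v).symm)

theorem Pos.ee1_nn (h : Pos A) (x : Fin m → ℝ) : 0 ≤ bf A x x := by
  obtain ⟨δ, hδ, H⟩ := h.coer
  exact le_trans (by positivity) (H x)

theorem Pos.diff (h : Pos A) (a b : Fin m → ℝ) : DifferentiableOn ℂ (th A a b) Hp := by
  intro τ hτ
  have h0 : 0 < τ.im / 2 := half_pos hτ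
  have ho : IsOpen {z : ℂ | τ.im / 2 < z.im} := isOpen_lt continuous_const continuous_im
  have h1 : DifferentiableOn ℂ (fun z => ∑' v, tm A a b z v) {z : ℂ | τ.im / 2 < z.im} := by
    refine differentiableOn_tsum_of_summable_norm (h.summ a h0) (fun v => ?_) ho fun v z hz => ?_
    · unfold tm
      fun_prop
    · rw [norm_tm]
      exact Real.exp_le_exp.2 (neg_le_neg (mul_le_mul_of_nonneg_right
        (mul_le_mul_of_nonneg_left (le_of_lt hz) Real.pi_pos.le) (h.ee1_nn _)))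
  exact (h1.differentiableAt
    (ho.mem_nhds (show τ.im / 2 < τ.im from half_lt_self hτ))).differentiableWithinAt

theorem Pos.tail (h : Pos A) (a b : Fin m → ℝ) (S : Finset (Fin m → ℤ)) {μ : ℝ}
    (hμ : ∀ v ∉ S, μ ≤ bf A (cz v + a) (cz v + a)) : ∃ C : ℝ, ∀ τ : ℂ, 1 ≤ τ.im →
      ‖th A a b τ - ∑ v ∈ S, tm A a b τ v‖ ≤ C * Real.exp (-(π * μ * τ.im)) := by
  have hs := (h.summ a one_pos).subtype (↑S : Set (Fin m → ℤ))ᶜ
  refine ⟨(∑' v : ((↑S : Set (Fin m → ℤ))ᶜ : Set _),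
    Real.exp (-(π * 1 * bf A (cz v + a) (cz v + a)))) * Real.exp (π * μ), fun τ hτ => ?_⟩
  rw [th, ← (h.summ_tm a b (lt_of_lt_of_le one_pos hτ)).sum_add_tsum_compl (s := S),
    add_sub_cancel_left, mul_assoc]
  refine tsum_of_norm_bounded (hs.hasSum.mul_right _) fun v => ?_
  rw [norm_tm, Function.comp_apply, ← Real.exp_add, ← Real.exp_add, Real.exp_le_exp]
  have h1 := mul_nonneg (mul_nonneg Real.pi_pos.le (sub_nonneg.2 hτ)) (sub_nonneg.2 (hμ v v.2))
  linarith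

end Vale.Agent.P267.Elk
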