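import Vale.Agent.P267N.EB3
import Vale.Agent.P267N.EC
import Vale.Agent.P267N.EE1

/-! Theta series of positive unimodular forms. -/

open Complex Matrix MeasureTheory Filter
open scoped Real Topology

noncomputable section

namespace Vale.Agent.P267.Elk

variable {m : ℕ} {A : Matrix (Fin m) (Fin m) ℤ} {w : Fin m → ℤ}

/-- A unimodular matrix permutes the lattice. -/
def ed_eqv (h : Pos A) : (Fin m → ℤ) ≃ (Fin m → ℤ) where
  toFun y := A *ᵥ y
  invFun y := A.adjugate *ᵥ y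
  left_inv y := by simp only [mulVec_mulVec, adjugate_mul, h.det, one_smul, one_mulVec]
  right_inv y := by simp only [mulVec_mulVec, mul_adjugate, h.det, one_smul, one_mulVec]

theorem ed_dot (x : Fin m → ℝ) (y : Fin m → ℤ) : x ⬝ᵥ cz (A *ᵥ y) = bf A x (cz y) := by
  simp [bf, cz, dotProduct, mulVec]

theorem Pos.slaw (h : Pos A) (a : Fin m → ℝ) {t : ℝ} (ht : 0 < t) :
    th A 0 a (I / t) = ((√t : ℝ) : ℂ) ^ m * th A a 0 (I * t) := by
  obtain ⟨δ, hδ, H⟩ := h.coer
  have t0 : (t : ℂ) ≠ 0 := ofReal_ne_zero.2 ht.ne'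
  have s0 : ((√t : ℝ) : ℂ) ≠ 0 := ofReal_ne_zero.2 (Real.sqrt_pos.2 ht).ne'
  have e : ∀ y : Fin m → ℤ, ∫ x : Fin m → ℝ, cexp (-(π * t * bf A (x + a) (x + a))) *
      cexp (-(2 * π * I * (x ⬝ᵥ cz (ed_eqv h y) : ℝ))) =
        ((√t : ℝ) : ℂ)⁻¹ ^ m * tm A 0 a (I / t) y := fun y => by
    have e1 : π * I * (I / t) * bf A (cz y) (cz y) = -(π * bf A (cz y) (cz y) / t) := by
      linear_combination (π * bf A (cz y) (cz y) / t) * I_mul_I
    rw [tm, add_zero, e1, ← h.gauss ht a (cz y)]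
    simp only [ed_eqv, Equiv.coe_fn_mk, ed_dot]
  have hs : I / (t : ℂ) ∈ Hp := by
    simp only [Hp, Set.mem_ofPred_eq, div_ofReal_im, I_im]
    positivity
  have key := poisson (f := fun x => cexp (-(π * t * bf A (x + a) (x + a))))
    (by unfold bf; fun_prop) (C := Real.exp (π * t * δ * ‖a‖ ^ 2)) (δ := π * t * δ / 2)
    (by positivity) (fun x => by
      refine le_trans ?_ (shift_gauss (by positivity) x a)
      rw [norm_exp, ← ofReal_mul, ← ofReal_mul, ← ofReal_neg, ofReal_re, mul_assoc _ δ]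
      exact Real.exp_le_exp.2 (neg_le_neg (mul_le_mul_of_nonneg_left (H _) (by positivity))))
    ((ed_eqv h).summable_iff.1 (((h.summ_tm 0 a hs).mul_left _).congr fun y => (e y).symm))
  rw [← (ed_eqv h).tsum_eq fun j => ∫ x : Fin m → ℝ, _ * cexp (-(2 * π * I * (x ⬝ᵥ cz j : ℝ))),
    tsum_congr e, tsum_mul_left] at key
  have e2 : th A a 0 (I * t) = ∑' v : Fin m → ℤ, cexp (-(π * t * bf A (cz v + a) (cz v + a))) :=
    tsum_congr fun v => by
      rw [tm, bf_zero_right, ofReal_zero, mul_zero, add_zero]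
      congr 1
      linear_combination (π * t * bf A (cz v + a) (cz v + a)) * I_mul_I
  rw [e2, key, ← mul_assoc, ← mul_pow, mul_inv_cancel₀ s0, one_pow, one_mul, th]

end Vale.Agent.P267.Elk
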