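import Mathlib

/-! Theta series of positive unimodular forms: definitions. -/

open Complex Matrix
open scoped Real

noncomputable section

namespace Vale.Agent.P267.Elk

variable {m : ℕ}

/-- The real bilinear form of an integral matrix. -/
def bf (A : Matrix (Fin m) (Fin m) ℤ) (x y : Fin m → ℝ) : ℝ :=
  x ⬝ᵥ A.map (Int.cast : ℤ → ℝ) *ᵥ y

/-- Integral vectors as real vectors. -/
def cz (v : Fin m → ℤ) : Fin m → ℝ := fun i => v i

/-- One half of an integral vector. -/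
def hf (w : Fin m → ℤ) : Fin m → ℝ := fun i => w i / 2

/-- The terms of the theta series. -/
def tm (A : Matrix (Fin m) (Fin m) ℤ) (a b : Fin m → ℝ) (τ : ℂ) (v : Fin m → ℤ) : ℂ :=
  cexp (π * I * τ * bf A (cz v + a) (cz v + a) + 2 * π * I * bf A (cz v) b)

/-- The theta series with characteristics. -/
def th (A : Matrix (Fin m) (Fin m) ℤ) (a b : Fin m → ℝ) (τ : ℂ) : ℂ := ∑' v, tm A a b τ v

/-- Positive unimodular forms. -/
structure Pos (A : Matrix (Fin m) (Fin m) ℤ) : Prop where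
  symm : A.IsSymm
  det : A.det = 1
  coer : ∃ δ : ℝ, 0 < δ ∧ ∀ x, δ * ‖x‖ ^ 2 ≤ bf A x x

/-- `w` is a shortest characteristic vector and has norm `m`. -/
structure Ch (A : Matrix (Fin m) (Fin m) ℤ) (w : Fin m → ℤ) : Prop extends Pos A where
  nrm : w ⬝ᵥ A *ᵥ w = m
  par : ∀ v, ∃ d : ℤ, 0 ≤ d ∧ 2 * d = v ⬝ᵥ A *ᵥ v - v ⬝ᵥ A *ᵥ w

/-- The upper half plane. -/
def Hp : Set ℂ := {τ | 0 < τ.im}

variable {A : Matrix (Fin m) (Fin m) ℤ}

theorem bf_cz (v v' : Fin m → ℤ) : bf A (cz v) (cz v') = ((v ⬝ᵥ A *ᵥ v' : ℤ) : ℝ) := by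
  simp [bf, cz, dotProduct, mulVec]

theorem bf_add_left (x x' y : Fin m → ℝ) : bf A (x + x') y = bf A x y + bf A x' y := by
  simp [bf]

theorem bf_add_right (x y y' : Fin m → ℝ) : bf A x (y + y') = bf A x y + bf A x y' := by
  simp [bf, mulVec_add]

theorem bf_smul_left (c : ℝ) (x y : Fin m → ℝ) : bf A (c • x) y = c * bf A x y := by
  simp [bf]

theorem bf_smul_right (c : ℝ) (x y : Fin m → ℝ) : bf A x (c • y) = c * bf A x y := by
  simp [bf, mulVec_smul]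

theorem bf_zero_left (y : Fin m → ℝ) : bf A 0 y = 0 := by simp [bf]

theorem bf_zero_right (x : Fin m → ℝ) : bf A x 0 = 0 := by simp [bf]

theorem bf_comm (h : A.IsSymm) (x y : Fin m → ℝ) : bf A x y = bf A y x := by
  have e : (A.map (Int.cast : ℤ → ℝ))ᵀ = A.map (Int.cast : ℤ → ℝ) := h.map _
  rw [bf, bf, dotProduct_mulVec, ← mulVec_transpose, e, dotProduct_comm]

theorem zf_comm (h : A.IsSymm) (x y : Fin m → ℤ) : x ⬝ᵥ A *ᵥ y = y ⬝ᵥ A *ᵥ x := by
  rw [dotProduct_mulVec, ← mulVec_transpose, h.eq, dotProduct_comm]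

theorem hf_eq (w : Fin m → ℤ) : hf w = (1 / 2 : ℝ) • cz w := by
  funext i; simp [hf, cz]; ring

theorem cz_zero : cz (0 : Fin m → ℤ) = 0 := by funext i; simp [cz]

theorem cz_eq_zero {v : Fin m → ℤ} : cz v = 0 ↔ v = 0 := by
  simp [cz, funext_iff]

theorem Pos.zpos (h : Pos A) {v : Fin m → ℤ} (hv : v ≠ 0) : 1 ≤ v ⬝ᵥ A *ᵥ v := by
  obtain ⟨δ, hδ, H⟩ := h.coer
  have h1 : 0 < ‖cz v‖ := norm_pos_iff.2 fun e => hv (cz_eq_zero.1 e)
  have h2 := (H (cz v)).trans_eq (bf_cz v v)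
  have h3 : (0 : ℝ) < ((v ⬝ᵥ A *ᵥ v : ℤ) : ℝ) := lt_of_lt_of_le (by positivity) h2
  exact_mod_cast h3

theorem isOpen_Hp : IsOpen Hp := isOpen_lt continuous_const continuous_im

end Vale.Agent.P267.Elk
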