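import Vale.Agent.P267N.EDefs

/-! Theta series of positive unimodular forms. -/

open Complex Matrix MeasureTheory Filter
open scoped Real Topology

noncomputable section

namespace Vale.Agent.P267.Elk

variable {m : ℕ} {A : Matrix (Fin m) (Fin m) ℤ} {w : Fin m → ℤ}

section
open scoped UpperHalfPlane MatrixGroups ModularForm Manifold

theorem ef1_zero (g : ℍ → ℂ) (hd : MDifferentiable 𝓘(ℂ) 𝓘(ℂ) g)
    (hS : ∀ z, g (ModularGroup.S • z) = g z) (hT : ∀ z, g (ModularGroup.T • z) = g z)
    (h0 : Tendsto g UpperHalfPlane.atImInfty (𝓝 0)) (z : ℍ) : g z = 0 := by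
  have h1 : ∀ γ : SL(2, ℤ), g ∣[(0 : ℤ)] γ = g :=
    SlashInvariantForm.slash_action_generators_SL2Z
      (funext fun z => by rw [ModularForm.SL_slash_apply, hS, neg_zero, zpow_zero, mul_one])
      (funext fun z => by rw [ModularForm.SL_slash_apply, hT, neg_zero, zpow_zero, mul_one])
  let f : ModularForm 𝒮ℒ 0 :=
    { toFun := g
      slash_action_eq' := fun A hA => by
        obtain ⟨A, rfl⟩ := hA
        exact h1 A
      holo' := hd
      bdd_at_cusps' := fun hc => by
        rw [OnePoint.isBoundedAt_iff_forall_SL2Z hc]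
        intro γ _
        rw [h1]
        exact UpperHalfPlane.IsZeroAtImInfty.isBoundedAtImInfty h0 }
  obtain ⟨c, hc⟩ := ModularFormClass.levelOne_weight_zero_const f
  have h2 : g = Function.const _ c := hc
  rw [h2] at h0 ⊢
  exact tendsto_const_nhds_iff.1 h0

theorem ef1_S (z : ℍ) : ModularForm.discriminant (ModularGroup.S • z) =
    (z : ℂ) ^ 12 * ModularForm.discriminant z := by
  have h := congrFun ModularForm.discriminant_S_invariant z
  rw [ModularForm.SL_slash_apply, ModularGroup.denom_S] at h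
  have h0 := z.ne_zero
  rw [← h]
  field_simp

theorem ef1_T (z : ℍ) : ModularForm.discriminant (ModularGroup.T • z) =
    ModularForm.discriminant z := by
  have h := congrFun ModularForm.discriminant_T_invariant z
  have e : UpperHalfPlane.denom ModularGroup.T z = 1 := by
    rw [ModularGroup.denom_apply, ModularGroup.coe_T]
    simp
  rwa [ModularForm.SL_slash_apply, e, _root_.one_zpow, mul_one] at h

end

theorem vanish_mod {F : ℂ → ℂ} (hd : DifferentiableOn ℂ F Hp) (hT : ∀ τ ∈ Hp, F (τ + 1) = F τ)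
    (hS : ∀ τ ∈ Hp, F (-1 / τ) = τ ^ (12 * m) * F τ) {C : ℝ}
    (hb : ∀ τ : ℂ, 1 ≤ τ.im → ‖F τ‖ ≤ C * Real.exp (-(2 * π * (m + 1) * τ.im))) :
    ∀ τ ∈ Hp, F τ = 0 := by
  intro τ hτ
  have h1 := ef1_zero (fun z => F z / ModularForm.discriminant z ^ m) ?_ (fun z => ?_) (fun z => ?_)
    ?_ ⟨τ, hτ⟩
  · exact (div_eq_zero_iff.1 h1).resolve_right (pow_ne_zero _ (ModularForm.discriminant_ne_zero _))
  · rw [UpperHalfPlane.mdifferentiable_iff]
    have h2 := UpperHalfPlane.mdifferentiable_iff.1 CuspForm.discriminant.holo'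
    refine (hd.div (h2.pow m) fun z _ => pow_ne_zero _ (ModularForm.discriminant_ne_zero _)).congr
      fun z hz => ?_
    simp only [Function.comp_apply, UpperHalfPlane.ofComplex_apply_of_im_pos hz, Pi.div_apply,
      Pi.pow_apply]
    rfl
  · have e : ((ModularGroup.S • z : UpperHalfPlane) : ℂ) = -1 / z := by
      rw [UpperHalfPlane.modular_S_smul, neg_div, one_div, ← inv_neg]
    have h0 := z.ne_zero
    simp only [e, hS z z.2, ef1_S, mul_pow, ← pow_mul]
    rw [mul_div_mul_left _ _ (pow_ne_zero _ h0)]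
  · have e : ((ModularGroup.T • z : UpperHalfPlane) : ℂ) = z + 1 := by
      rw [UpperHalfPlane.modular_T_smul, UpperHalfPlane.coe_vadd, add_comm, ofReal_one]
    simp only [e, hT z z.2, ef1_T]
  · have h2 : Tendsto (fun z : UpperHalfPlane => Real.exp (-2 * π * z.im))
        UpperHalfPlane.atImInfty (𝓝 0) :=
      Real.tendsto_exp_atBot.comp
        (tendsto_comap.const_mul_atTop_of_neg (by linarith [Real.pi_pos]))
    have h3 := ((Asymptotics.isLittleO_one_iff ℂ).2 h2).mul_isBigO
      (ModularForm.exp_isBigO_discriminant.pow m)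
    simp only [one_mul] at h3
    refine (Asymptotics.IsBigO.trans_isLittleO (Asymptotics.IsBigO.of_bound C ?_)
      h3).tendsto_div_nhds_zero
    refine (UpperHalfPlane.atImInfty_mem _).2 ⟨1, fun z hz => (hb z hz).trans_eq ?_⟩
    rw [← pow_succ', ← Real.exp_nat_mul, Real.norm_of_nonneg (Real.exp_pos _).le]
    congr 2
    push_cast
    rw [UpperHalfPlane.coe_im]
    ring

end Vale.Agent.P267.Elk
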