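import Vale.Agent.P267N.EF1

/-! Theta series of positive unimodular forms. -/

open Complex Matrix MeasureTheory Filter
open scoped Real Topology

noncomputable section

namespace Vale.Agent.P267.Elk

variable {m : ℕ} {A : Matrix (Fin m) (Fin m) ℤ} {w : Fin m → ℤ}

theorem EF2_pre : IsPreconnected Hp := (convex_halfSpace_im_gt 0).isPreconnected

theorem EF2_an {f : ℂ → ℂ} (hf : DifferentiableOn ℂ f Hp) : AnalyticOnNhd ℂ f Hp :=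
  hf.analyticOnNhd isOpen_Hp

theorem EF2_axis {t : ℝ} (ht : 0 < t) : I * (t : ℂ) ∈ Hp := by
  simpa [Hp] using ht

theorem ext_axis {f g : ℂ → ℂ} (hf : DifferentiableOn ℂ f Hp) (hg : DifferentiableOn ℂ g Hp)
    (h : ∀ t : ℝ, 0 < t → f (I * t) = g (I * t)) : ∀ τ ∈ Hp, f τ = g τ := by
  have hI : I ∈ Hp := by simp [Hp]
  refine (EF2_an hf).eqOn_of_preconnected_of_frequently_eq (EF2_an hg) EF2_pre hI ?_
  have hc : Continuous fun t : ℝ => I * (t : ℂ) := by fun_prop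
  have h1 : Tendsto (fun t : ℝ => I * (t : ℂ)) (𝓝[>] 1) (𝓝[≠] I) := by
    refine tendsto_nhdsWithin_iff.2 ⟨?_, ?_⟩
    · have := (hc.tendsto 1).mono_left (nhdsWithin_le_nhds (s := Set.Ioi (1 : ℝ)))
      simpa using this
    · filter_upwards [self_mem_nhdsWithin] with t ht
      intro e
      have e2 := congrArg Complex.im (Set.mem_singleton_iff.1 e)
      simp at e2
      exact (ne_of_gt (Set.mem_Ioi.1 ht)) e2
  refine h1.frequently (Filter.Eventually.frequently ?_)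
  filter_upwards [self_mem_nhdsWithin] with t ht
  exact h t (lt_trans one_pos (Set.mem_Ioi.1 ht))

theorem EF2_inv {τ : ℂ} (h : τ ∈ Hp) : -1 / τ ∈ Hp := by
  have h0 : 0 < τ.im := h
  have hn : τ ≠ 0 := fun e => by simp [e] at h0
  have hp : 0 < normSq τ := normSq_pos.2 hn
  show 0 < (-1 / τ).im
  rw [neg_div, one_div, neg_im, inv_im, neg_div, neg_neg]
  positivity

theorem EF2_s3 {f2 f3 : ℂ → ℂ}
    (s2 : ∀ t : ℝ, 0 < t → f2 (I / t) = ((√t : ℝ) : ℂ) ^ m * f3 (I * t)) (t : ℝ) (ht : 0 < t) :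
    f3 (I / t) = ((√t : ℝ) : ℂ) ^ m * f2 (I * t) := by
  have h := s2 t⁻¹ (inv_pos.2 ht)
  have hs : ((√t : ℝ) : ℂ) ≠ 0 := ofReal_ne_zero.2 (Real.sqrt_pos.2 ht).ne'
  rw [ofReal_inv, div_inv_eq_mul, ← div_eq_mul_inv, Real.sqrt_inv, ofReal_inv] at h
  rw [h, ← mul_assoc, ← mul_pow, mul_inv_cancel₀ hs, one_pow, one_mul]

theorem EF2_bd {a b c : ℂ} {C1 C2 C3 y : ℝ} (hy : 1 ≤ y)
    (b1 : ‖a‖ ≤ C1 * Real.exp (-(π * y))) (b2 : ‖b‖ ≤ C2 * Real.exp (-(π * y)))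
    (b3 : ‖c‖ ≤ C3 * Real.exp (-(π * (m / 4) * y))) :
    ‖(a * b * c) ^ 8‖ ≤ (C1 * C2 * C3) ^ 8 * Real.exp (-(2 * π * (m + 1) * y)) := by
  have h1 : ‖a * b * c‖ ≤ C1 * Real.exp (-(π * y)) * (C2 * Real.exp (-(π * y))) *
      (C3 * Real.exp (-(π * (m / 4) * y))) := by
    rw [norm_mul, norm_mul]
    exact mul_le_mul (mul_le_mul b1 b2 (norm_nonneg _) ((norm_nonneg _).trans b1)) b3
      (norm_nonneg _) (mul_nonneg ((norm_nonneg _).trans b1) ((norm_nonneg _).trans b2))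
  have h2 : C1 * Real.exp (-(π * y)) * (C2 * Real.exp (-(π * y))) *
      (C3 * Real.exp (-(π * (m / 4) * y))) =
      C1 * C2 * C3 * Real.exp (-(π * y) + -(π * y) + -(π * (m / 4) * y)) := by
    rw [Real.exp_add, Real.exp_add]; ring
  rw [norm_pow]
  refine (pow_le_pow_left₀ (norm_nonneg _) (h1.trans_eq h2) 8).trans ?_
  rw [mul_pow _ (Real.exp _), ← Real.exp_nat_mul]
  refine mul_le_mul_of_nonneg_left (Real.exp_le_exp.2 ?_) (Even.pow_nonneg ⟨4, rfl⟩ _)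
  have h3 : 0 ≤ π * y := mul_nonneg Real.pi_pos.le (by linarith)
  have h4 : ((8 : ℕ) : ℝ) * (-(π * y) + -(π * y) + -(π * (m / 4) * y)) =
      -(2 * π * (m + 1) * y) - 14 * (π * y) := by push_cast; ring
  rw [h4]
  linarith

theorem three {f1 f2 f3 : ℂ → ℂ} (d1 : DifferentiableOn ℂ f1 Hp) (d2 : DifferentiableOn ℂ f2 Hp)
    (d3 : DifferentiableOn ℂ f3 Hp) {ζ : ℂ} (hζ : ζ ^ 8 = 1)
    (t1 : ∀ τ ∈ Hp, f1 (τ + 1) = f2 τ) (t2 : ∀ τ ∈ Hp, f2 (τ + 1) = f1 τ)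
    (t3 : ∀ τ ∈ Hp, f3 (τ + 1) = ζ * f3 τ)
    (s1 : ∀ t : ℝ, 0 < t → f1 (I / t) = ((√t : ℝ) : ℂ) ^ m * f1 (I * t))
    (s2 : ∀ t : ℝ, 0 < t → f2 (I / t) = ((√t : ℝ) : ℂ) ^ m * f3 (I * t)) {C1 C2 C3 : ℝ}
    (b1 : ∀ τ : ℂ, 1 ≤ τ.im → ‖f1 τ‖ ≤ C1 * Real.exp (-(π * τ.im)))
    (b2 : ∀ τ : ℂ, 1 ≤ τ.im → ‖f2 τ‖ ≤ C2 * Real.exp (-(π * τ.im)))
    (b3 : ∀ τ : ℂ, 1 ≤ τ.im → ‖f3 τ‖ ≤ C3 * Real.exp (-(π * (m / 4) * τ.im))) :
    ∀ τ ∈ Hp, f1 τ = 0 := by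
  have dF : DifferentiableOn ℂ (fun τ => (f1 τ * f2 τ * f3 τ) ^ 8) Hp :=
    ((d1.mul d2).mul d3).pow 8
  have dI : DifferentiableOn ℂ (fun τ : ℂ => -1 / τ) Hp :=
    (differentiableOn_const _).div differentiableOn_id fun τ hτ e => by
      have h0 : 0 < τ.im := hτ
      have e' : τ = 0 := e
      simp [e'] at h0
  have hS : ∀ τ ∈ Hp, (f1 (-1 / τ) * f2 (-1 / τ) * f3 (-1 / τ)) ^ 8 =
      τ ^ (12 * m) * (f1 τ * f2 τ * f3 τ) ^ 8 := by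
    refine ext_axis (dF.comp dI fun τ hτ => EF2_inv hτ)
      ((differentiableOn_id.pow (12 * m)).mul dF) fun t ht => ?_
    have ht0 : (t : ℂ) ≠ 0 := ofReal_ne_zero.2 ht.ne'
    have e : -1 / (I * (t : ℂ)) = I / t := by
      rw [div_eq_div_iff (mul_ne_zero I_ne_zero ht0) ht0, ← mul_assoc, I_mul_I]
    have e2 : ((√t : ℝ) : ℂ) ^ 2 = t := by
      rw [← ofReal_pow, Real.sq_sqrt ht.le]
    have e3 : (I * (t : ℂ)) ^ (12 * m) = (((√t : ℝ) : ℂ) ^ m) ^ 24 := by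
      have e4 : I ^ (12 * m) = 1 := by
        rw [show 12 * m = 4 * (3 * m) by ring, pow_mul, I_pow_four, one_pow]
      rw [mul_pow, e4, one_mul, ← pow_mul, show m * 24 = 2 * (12 * m) by ring, pow_mul _ 2, e2]
    show (f1 (-1 / (I * t)) * f2 (-1 / (I * t)) * f3 (-1 / (I * t))) ^ 8 =
      (I * t) ^ (12 * m) * (f1 (I * t) * f2 (I * t) * f3 (I * t)) ^ 8
    rw [e, s1 t ht, s2 t ht, EF2_s3 s2 t ht, e3]
    ring
  have hz := vanish_mod (m := m) (C := (C1 * C2 * C3) ^ 8) dF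
    (fun τ hτ => by
      show (f1 (τ + 1) * f2 (τ + 1) * f3 (τ + 1)) ^ 8 = (f1 τ * f2 τ * f3 τ) ^ 8
      rw [t1 τ hτ, t2 τ hτ, t3 τ hτ]
      linear_combination (f1 τ * f2 τ * f3 τ) ^ 8 * hζ)
    hS fun τ hτ => EF2_bd hτ (b1 τ hτ) (b2 τ hτ) (b3 τ hτ)
  have k2 : (∀ τ ∈ Hp, f2 τ = 0) → ∀ τ ∈ Hp, f1 τ = 0 := fun h τ hτ => by
    rw [← t2 τ hτ]
    exact h _ (by simpa [Hp] using hτ)
  rcases (EF2_an (d1.mul d2)).eq_zero_or_eq_zero_of_mul_eq_zero (EF2_an d3)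
    (fun τ hτ => pow_eq_zero_iff (n := 8) (by norm_num) |>.1 (hz τ hτ)) EF2_pre with h | h
  · rcases (EF2_an d1).eq_zero_or_eq_zero_of_mul_eq_zero (EF2_an d2) h EF2_pre with h | h
    · exact h
    · exact k2 h
  · refine k2 (ext_axis (g := fun _ => 0) d2 (differentiableOn_const _) fun t ht => ?_)
    have h1 := s2 t⁻¹ (inv_pos.2 ht)
    rw [h _ (EF2_axis (inv_pos.2 ht)), mul_zero, ofReal_inv, div_inv_eq_mul] at h1
    exact h1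

end Vale.Agent.P267.Elk
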