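import Vale.Agent.P267N.EDefs

/-! Theta series of positive unimodular forms. -/

open Complex Matrix MeasureTheory Filter
open scoped Real Topology

noncomputable section

namespace Vale.Agent.P267.Elk

variable {m : ℕ} {A : Matrix (Fin m) (Fin m) ℤ} {w : Fin m → ℤ}

theorem ch_one : Ch (1 : Matrix (Fin m) (Fin m) ℤ) 1 where
  symm := isSymm_one
  det := det_one
  coer := ⟨1, one_pos, fun x => by
    have h1 : bf 1 x x = ∑ i, x i * x i := by simp [bf, dotProduct]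
    have h0 : 0 ≤ ∑ i, x i * x i := Finset.sum_nonneg fun i _ => mul_self_nonneg _
    have h2 : ‖x‖ ≤ √(∑ i, x i * x i) :=
      (pi_norm_le_iff_of_nonneg (Real.sqrt_nonneg _)).2 fun i => Real.abs_le_sqrt (by
        rw [sq]
        exact Finset.single_le_sum (f := fun i => x i * x i) (fun i _ => mul_self_nonneg _)
          (Finset.mem_univ i))
    rw [one_mul, h1]
    exact (pow_le_pow_left₀ (norm_nonneg _) h2 2).trans (Real.sq_sqrt h0).le⟩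
  nrm := by simp [dotProduct]
  par v := by
    have h : ∀ i, ∃ d : ℤ, 0 ≤ d ∧ 2 * d = v i * v i - v i := fun i => by
      obtain ⟨d, hd⟩ := Int.even_mul_pred_self (v i)
      refine ⟨d, ?_, by linarith⟩
      rcases le_or_gt (v i) 0 with h | h <;> nlinarith
    choose d h0 h1 using h
    refine ⟨∑ i, d i, Finset.sum_nonneg fun i _ => h0 i, ?_⟩
    simp [dotProduct, Finset.mul_sum, h1]

theorem eg1_hf (v : Fin m → ℤ) : bf A (cz v) (hf w) = ((v ⬝ᵥ A *ᵥ w : ℤ) : ℝ) / 2 := by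
  rw [hf_eq, bf_smul_right, bf_cz]
  ring

theorem Ch.eg1_sq (h : Ch A w) (v : Fin m → ℤ) : bf A (cz v + hf w) (cz v + hf w) =
    ((v ⬝ᵥ A *ᵥ v : ℤ) : ℝ) + ((v ⬝ᵥ A *ᵥ w : ℤ) : ℝ) + m / 4 := by
  rw [bf_add_left, bf_add_right, bf_add_right, bf_comm h.symm (hf w) (cz v), eg1_hf, bf_cz, hf_eq,
    bf_smul_left, bf_smul_right, bf_cz, h.nrm]
  push_cast
  ring

theorem eg1_exp {x y : ℂ} (d : ℤ) (h : x = y + d * (2 * π * I)) : cexp x = cexp y := by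
  rw [h, exp_add, exp_int_mul_two_pi_mul_I, mul_one]

theorem Ch.eg1_par (h : Ch A w) (v : Fin m → ℤ) : ∃ d : ℤ,
    ((v ⬝ᵥ A *ᵥ v : ℤ) : ℂ) = 2 * d + ((v ⬝ᵥ A *ᵥ w : ℤ) : ℂ) := by
  obtain ⟨d, -, hd⟩ := h.par v
  exact ⟨d, by exact_mod_cast (show v ⬝ᵥ A *ᵥ v = 2 * d + v ⬝ᵥ A *ᵥ w by linarith)⟩

theorem Ch.t1 (h : Ch A w) (τ : ℂ) : th A 0 0 (τ + 1) = th A 0 (hf w) τ := by
  refine tsum_congr fun v => ?_
  obtain ⟨d, hd⟩ := h.eg1_par v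
  refine eg1_exp d ?_
  rw [add_zero, bf_zero_right, eg1_hf, bf_cz, ofReal_div, ofReal_intCast, ofReal_intCast, hd]
  push_cast
  ring

theorem Ch.t2 (h : Ch A w) (τ : ℂ) : th A 0 (hf w) (τ + 1) = th A 0 0 τ := by
  refine tsum_congr fun v => ?_
  obtain ⟨d, hd⟩ := h.eg1_par v
  refine eg1_exp (d + v ⬝ᵥ A *ᵥ w) ?_
  rw [add_zero, bf_zero_right, eg1_hf, bf_cz, ofReal_div, ofReal_intCast, ofReal_intCast, hd,
    Int.cast_add]
  push_cast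
  ring

theorem Ch.t3 (h : Ch A w) (τ : ℂ) :
    th A (hf w) 0 (τ + 1) = cexp (π * I * m / 4) * th A (hf w) 0 τ := by
  rw [th, th, ← tsum_mul_left]
  refine tsum_congr fun v => ?_
  obtain ⟨d, hd⟩ := h.eg1_par v
  rw [tm, tm, ← exp_add]
  refine eg1_exp (d + v ⬝ᵥ A *ᵥ w) ?_
  rw [bf_zero_right, h.eg1_sq, ofReal_add, ofReal_add, ofReal_intCast, ofReal_intCast, hd,
    Int.cast_add]
  push_cast
  ring

theorem Ch.low (h : Ch A w) (v : Fin m → ℤ) :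
    (m / 4 : ℝ) ≤ bf A (cz v + hf w) (cz v + hf w) := by
  obtain ⟨d, h0, hd⟩ := h.par (-v)
  rw [mulVec_neg, neg_dotProduct_neg, neg_dotProduct, sub_neg_eq_add] at hd
  have h1 : (0 : ℝ) ≤ ((v ⬝ᵥ A *ᵥ v + v ⬝ᵥ A *ᵥ w : ℤ) : ℝ) := by
    exact_mod_cast (show 0 ≤ v ⬝ᵥ A *ᵥ v + v ⬝ᵥ A *ᵥ w by linarith)
  rw [h.eg1_sq]
  rw [Int.cast_add] at h1
  linarith

end Vale.Agent.P267.Elk
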