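import Vale.Agent.P267N.ED
import Vale.Agent.P267N.EF2
import Vale.Agent.P267N.EG1

/-! Theta series of positive unimodular forms. -/

open Complex Matrix MeasureTheory Filter
open scoped Real Topology

noncomputable section

namespace Vale.Agent.P267.Elk

variable {m : ℕ} {A : Matrix (Fin m) (Fin m) ℤ} {w : Fin m → ℤ}

theorem Pos.eg2_one (h : Pos A) (b : Fin m → ℝ) : ∃ C : ℝ, ∀ τ : ℂ, 1 ≤ τ.im →
    ‖th A 0 b τ - 1‖ ≤ C * Real.exp (-(π * τ.im)) := by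
  obtain ⟨C, hC⟩ := h.tail 0 b {0} (μ := 1) fun v hv => by
    rw [add_zero, bf_cz]
    exact_mod_cast h.zpos fun e => hv (Finset.mem_singleton.2 e)
  refine ⟨C, fun τ hτ => ?_⟩
  have := hC τ hτ
  rwa [Finset.sum_singleton, tm, cz_zero, add_zero, bf_zero_left, bf_zero_left, ofReal_zero,
    mul_zero, mul_zero, add_zero, Complex.exp_zero, mul_one] at this

theorem Ch.eg2_low (h : Ch A w) : ∃ C : ℝ, ∀ τ : ℂ, 1 ≤ τ.im →
    ‖th A (hf w) 0 τ‖ ≤ C * Real.exp (-(π * (m / 4) * τ.im)) := by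
  obtain ⟨C, hC⟩ := h.toPos.tail (hf w) 0 ∅ fun v _ => h.low v
  exact ⟨C, fun τ hτ => by simpa using hC τ hτ⟩

theorem Ch.th_eq (h : Ch A w) :
    ∀ τ ∈ Hp, th A 0 0 τ = th (1 : Matrix (Fin m) (Fin m) ℤ) 0 0 τ := by
  have g : Ch (1 : Matrix (Fin m) (Fin m) ℤ) 1 := ch_one
  obtain ⟨C1, a1⟩ := h.toPos.eg2_one 0
  obtain ⟨D1, b1⟩ := g.toPos.eg2_one 0
  obtain ⟨C2, a2⟩ := h.toPos.eg2_one (hf w)
  obtain ⟨D2, b2⟩ := g.toPos.eg2_one (hf 1)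
  obtain ⟨C3, a3⟩ := h.eg2_low
  obtain ⟨D3, b3⟩ := g.eg2_low
  have key : ∀ {x y : ℂ} {C D e : ℝ}, ‖x - 1‖ ≤ C * e → ‖y - 1‖ ≤ D * e →
      ‖x - y‖ ≤ (C + D) * e := fun {x y C D e} hx hy => by
    rw [← sub_sub_sub_cancel_right x y 1, add_mul]
    exact (norm_sub_le _ _).trans (add_le_add hx hy)
  have hζ : cexp (π * I * m / 4) ^ 8 = 1 := by
    rw [← Complex.exp_nat_mul, ← Complex.exp_nat_mul_two_pi_mul_I m]
    congr 1
    push_cast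
    ring
  intro τ hτ
  refine sub_eq_zero.1 (three (m := m) (f1 := fun τ => th A 0 0 τ - th 1 0 0 τ)
    (f2 := fun τ => th A 0 (hf w) τ - th 1 0 (hf 1) τ)
    (f3 := fun τ => th A (hf w) 0 τ - th 1 (hf 1) 0 τ)
    ((h.toPos.diff _ _).sub (g.toPos.diff _ _)) ((h.toPos.diff _ _).sub (g.toPos.diff _ _))
    ((h.toPos.diff _ _).sub (g.toPos.diff _ _)) hζ (fun τ _ => ?_) (fun τ _ => ?_)
    (fun τ _ => ?_) (fun t ht => ?_) (fun t ht => ?_) (fun τ hτ => key (a1 τ hτ) (b1 τ hτ))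
    (fun τ hτ => key (a2 τ hτ) (b2 τ hτ)) (C3 := C3 + D3) (fun τ hτ => ?_) τ hτ)
  · rw [h.t1, g.t1]
  · rw [h.t2, g.t2]
  · rw [h.t3, g.t3, mul_sub]
  · rw [h.toPos.slaw 0 ht, g.toPos.slaw 0 ht, mul_sub]
  · rw [h.toPos.slaw _ ht, g.toPos.slaw _ ht, mul_sub]
  · rw [add_mul]
    exact (norm_sub_le _ _).trans (add_le_add (a3 τ hτ) (b3 τ hτ))

end Vale.Agent.P267.Elk
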