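import Vale.Agent.P267N.EE1

/-! Theta series of positive unimodular forms. -/

open Complex Matrix MeasureTheory Filter
open scoped Real Topology

noncomputable section

namespace Vale.Agent.P267.Elk

variable {m : ℕ} {A : Matrix (Fin m) (Fin m) ℤ} {w : Fin m → ℤ}

theorem Pos.lim_card (h : Pos A) : ∃ S : Finset (Fin m → ℤ), (∀ v, v ∈ S ↔ v ⬝ᵥ A *ᵥ v = 1) ∧
    Tendsto (fun y : ℝ => cexp (π * y) * (th A 0 0 (I * y) - 1)) atTop (𝓝 (S.card : ℂ)) := by
  classical
  have hfin : {v : Fin m → ℤ | v ⬝ᵥ A *ᵥ v = 1}.Finite := by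
    have h1 := (h.summ 0 one_pos).tendsto_cofinite_zero
    have h2 := h1.eventually (gt_mem_nhds (Real.exp_pos (-π)))
    refine (Filter.eventually_cofinite.1 h2).subset fun v hv => ?_
    have hv' : v ⬝ᵥ A *ᵥ v = 1 := hv
    simp [bf_cz, hv']
  have hS : ∀ v, v ∈ hfin.toFinset ↔ v ⬝ᵥ A *ᵥ v = 1 := fun v => by simp
  refine ⟨hfin.toFinset, hS, ?_⟩
  set S := hfin.toFinset
  have h0 : (0 : Fin m → ℤ) ∉ S := by
    rw [hS]
    simp
  obtain ⟨C, hC⟩ := h.tail 0 0 (insert 0 S) (μ := 2) fun v hv => by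
    rw [Finset.mem_insert, not_or, hS] at hv
    have h1 := h.zpos hv.1
    have h2 : 2 ≤ v ⬝ᵥ A *ᵥ v := by omega
    rw [add_zero, bf_cz]
    exact_mod_cast h2
  have hsum : ∀ y : ℝ, ∑ v ∈ insert 0 S, tm A 0 0 (I * y) v = 1 + S.card * cexp (-(π * y)) := by
    intro y
    rw [Finset.sum_insert h0]
    congr 1
    · simp [tm, cz_zero, bf_zero_left]
    · rw [Finset.sum_congr rfl (g := fun _ => cexp (-(π * y))), Finset.sum_const, nsmul_eq_mul]
      intro v hv
      rw [tm, add_zero, bf_cz, (hS v).1 hv, bf_zero_right]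
      congr 1
      push_cast
      linear_combination (π * y : ℂ) * I_mul_I
  rw [tendsto_iff_norm_sub_tendsto_zero]
  have hlim : Tendsto (fun y : ℝ => C * Real.exp (-(π * y))) atTop (𝓝 0) := by
    have h1 : Tendsto (fun y : ℝ => π * y) atTop atTop :=
      tendsto_id.const_mul_atTop Real.pi_pos
    simpa using (Real.tendsto_exp_neg_atTop_nhds_zero.comp h1).const_mul C
  refine squeeze_zero' (Eventually.of_forall fun _ => norm_nonneg _) ?_ hlim
  filter_upwards [eventually_ge_atTop (1 : ℝ)] with y hy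
  have h1 := hC (I * y) (by simpa using hy)
  have e : cexp (π * y) * (th A 0 0 (I * y) - 1) - S.card =
      cexp (π * y) * (th A 0 0 (I * y) - ∑ v ∈ insert 0 S, tm A 0 0 (I * y) v) := by
    have h2 : cexp (π * y) * cexp (-(π * y)) = 1 := by rw [← Complex.exp_add]; simp
    rw [hsum]
    linear_combination (S.card : ℂ) * h2
  have e2 : ‖cexp (π * y)‖ = Real.exp (π * y) := by
    rw [Complex.norm_exp]
    simp
  have e3 : (I * y : ℂ).im = y := by simp
  rw [e, norm_mul, e2]
  rw [e3] at h1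
  refine (mul_le_mul_of_nonneg_left h1 (Real.exp_pos _).le).trans_eq ?_
  rw [mul_left_comm, ← Real.exp_add]
  congr 2
  ring

end Vale.Agent.P267.Elk
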