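import Vale.Agent.P267N.EDefs

/-! Theta series of positive unimodular forms. -/

open Complex Matrix MeasureTheory Filter
open scoped Real Topology

noncomputable section

namespace Vale.Agent.P267.Elk

variable {m : ℕ} {A : Matrix (Fin m) (Fin m) ℤ} {w : Fin m → ℤ}

theorem EI_single {v : Fin m → ℤ} (hv : v ⬝ᵥ v = 1) :
    ∃ i, (v i = 1 ∨ v i = -1) ∧ v = Pi.single i (v i) := by
  have hne : ∃ i, v i ≠ 0 := by
    by_contra hcon
    push Not at hcon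
    have h0 : v = 0 := funext hcon
    rw [h0] at hv
    simp at hv
  obtain ⟨i, hi⟩ := hne
  have hs : v i * v i + ∑ j ∈ Finset.univ.erase i, v j * v j = 1 := by
    rw [Finset.add_sum_erase Finset.univ (fun j => v j * v j) (Finset.mem_univ i)]
    exact hv
  have h1 : 0 < v i * v i := mul_self_pos.2 hi
  have h2 : 0 ≤ ∑ j ∈ Finset.univ.erase i, v j * v j :=
    Finset.sum_nonneg fun j _ => mul_self_nonneg _
  have h3 : v i * v i = 1 := by omega
  have h4 : ∑ j ∈ Finset.univ.erase i, v j * v j = 0 := by omega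
  refine ⟨i, mul_self_eq_one_iff.1 h3, ?_⟩
  funext j
  by_cases hj : j = i
  · subst hj
    simp
  · rw [Pi.single_eq_of_ne hj]
    have h5 := (Finset.sum_eq_zero_iff_of_nonneg fun j _ => mul_self_nonneg (v j)).1 h4 j
      (Finset.mem_erase.2 ⟨hj, Finset.mem_univ _⟩)
    exact mul_self_eq_zero.1 h5

theorem card_id {S : Finset (Fin m → ℤ)}
    (hS : ∀ v, v ∈ S ↔ v ⬝ᵥ (1 : Matrix (Fin m) (Fin m) ℤ) *ᵥ v = 1) : S.card = 2 * m := by
  have hinj : Function.Injective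
      (fun p : Fin m × Bool => (Pi.single p.1 (if p.2 then 1 else -1) : Fin m → ℤ)) := by
    rintro ⟨i, a⟩ ⟨j, b⟩ hab
    have e := congrFun hab i
    simp only [Pi.single_eq_same] at e
    by_cases hij : i = j
    · subst hij
      simp only [Pi.single_eq_same] at e
      cases a <;> cases b <;> simp_all
    · rw [Pi.single_eq_of_ne hij] at e
      cases a <;> simp at e
  have hS' : S = Finset.univ.image
      (fun p : Fin m × Bool => (Pi.single p.1 (if p.2 then 1 else -1) : Fin m → ℤ)) := by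
    ext v
    rw [hS, one_mulVec, Finset.mem_image]
    constructor
    · intro hv
      obtain ⟨i, hi, hv'⟩ := EI_single hv
      rcases hi with hi | hi
      · refine ⟨(i, true), Finset.mem_univ _, ?_⟩
        rw [hi] at hv'
        simpa using hv'.symm
      · refine ⟨(i, false), Finset.mem_univ _, ?_⟩
        rw [hi] at hv'
        simpa using hv'.symm
    · rintro ⟨⟨i, a⟩, -, rfl⟩
      cases a <;> simp
  rw [hS', Finset.card_image_of_injective _ hinj]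
  simp [mul_comm]

theorem EI_pm (h : Ch A w) {v : Fin m → ℤ} (hv : v ⬝ᵥ A *ᵥ v = 1) :
    v ⬝ᵥ A *ᵥ w = 1 ∨ v ⬝ᵥ A *ᵥ w = -1 := by
  obtain ⟨d, hd, e⟩ := h.par v
  obtain ⟨d', hd', e'⟩ := h.par (-v)
  rw [mulVec_neg, neg_dotProduct, dotProduct_neg, neg_neg, neg_dotProduct] at e'
  omega

theorem EI_orth (h : Ch A w) {u v : Fin m → ℤ} (hu : u ⬝ᵥ A *ᵥ u = 1) (hv : v ⬝ᵥ A *ᵥ v = 1)
    (hu' : u ⬝ᵥ A *ᵥ w = 1) (hv' : v ⬝ᵥ A *ᵥ w = 1) (huv : u ≠ v) : u ⬝ᵥ A *ᵥ v = 0 := by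
  have h1 := h.toPos.zpos (sub_ne_zero.2 huv)
  have h2 : u + v ≠ 0 := by
    intro e
    have e2 : (u + v) ⬝ᵥ A *ᵥ w = 2 := by
      rw [add_dotProduct, hu', hv']
      rfl
    rw [e, zero_dotProduct] at e2
    omega
  have h3 := h.toPos.zpos h2
  have hc := zf_comm h.symm v u
  rw [mulVec_sub, sub_dotProduct, dotProduct_sub, dotProduct_sub] at h1
  rw [mulVec_add, add_dotProduct, dotProduct_add, dotProduct_add] at h3
  omega

theorem EI_card (h : Ch A w) {S : Finset (Fin m → ℤ)} (hS : ∀ v, v ∈ S ↔ v ⬝ᵥ A *ᵥ v = 1)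
    (hc : S.card = 2 * m) : (S.filter fun v => v ⬝ᵥ A *ᵥ w = 1).card = m := by
  have h1 := Finset.card_filter_add_card_filter_not (s := S) (fun v => v ⬝ᵥ A *ᵥ w = 1)
  have h2 : (S.filter fun v => v ⬝ᵥ A *ᵥ w = 1).card =
      (S.filter fun v => ¬ v ⬝ᵥ A *ᵥ w = 1).card := by
    refine Finset.card_bij' (fun v _ => -v) (fun v _ => -v) ?_ ?_ ?_ ?_
    · intro v hv
      rw [Finset.mem_filter] at hv ⊢
      have e := (hS v).1 hv.1
      refine ⟨(hS _).2 ?_, ?_⟩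
      · rw [mulVec_neg, neg_dotProduct, dotProduct_neg, neg_neg, e]
      · rw [neg_dotProduct, hv.2]
        omega
    · intro v hv
      rw [Finset.mem_filter] at hv ⊢
      have e := (hS v).1 hv.1
      refine ⟨(hS _).2 ?_, ?_⟩
      · rw [mulVec_neg, neg_dotProduct, dotProduct_neg, neg_neg, e]
      · rw [neg_dotProduct]
        have e1 := EI_pm h e
        have e2 := hv.2
        omega
    · intro v _
      exact neg_neg v
    · intro v _
      exact neg_neg v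
  omega

theorem EI_expand {U : Fin m → Fin m → ℤ} (hA : A.IsSymm)
    (hU : ∀ i j, U i ⬝ᵥ A *ᵥ U j = if i = j then 1 else 0) (x y : Fin m → ℤ) :
    x ⬝ᵥ A *ᵥ y = ∑ i, (U i ⬝ᵥ A *ᵥ x) * (U i ⬝ᵥ A *ᵥ y) := by
  obtain ⟨M, hM⟩ : ∃ M : Matrix (Fin m) (Fin m) ℤ, M = Matrix.of U := ⟨_, rfl⟩
  have h1 : M * (A * Mᵀ) = 1 := by
    ext i j
    rw [one_apply, ← hU i j, hM]
    simp [mul_apply, dotProduct, mulVec]
  have h2 : (A * Mᵀ) * M = 1 := mul_eq_one_comm.1 h1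
  have h3 : (M * A)ᵀ * (M * A) = A := by
    rw [transpose_mul, hA.eq, ← Matrix.mul_assoc, h2, Matrix.one_mul]
  have h4 : ∀ z i, U i ⬝ᵥ A *ᵥ z = ((M * A) *ᵥ z) i := by
    intro z i
    rw [← mulVec_mulVec, hM]
    rfl
  simp only [h4]
  have h5 : x ⬝ᵥ A *ᵥ y = ((M * A) *ᵥ x) ⬝ᵥ ((M * A) *ᵥ y) := by
    conv_lhs => rw [← h3]
    rw [← mulVec_mulVec, dotProduct_mulVec, vecMul_transpose]
  rw [h5]
  rfl

theorem Ch.basis (h : Ch A w) {S : Finset (Fin m → ℤ)} (hS : ∀ v, v ∈ S ↔ v ⬝ᵥ A *ᵥ v = 1)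
    (hc : S.card = 2 * m) : ∃ U : Fin m → Fin m → ℤ,
      (∀ i j, U i ⬝ᵥ A *ᵥ U j = if i = j then 1 else 0) ∧ (∀ i, U i ⬝ᵥ A *ᵥ w = 1) ∧
      ∀ x y, x ⬝ᵥ A *ᵥ y = ∑ i, (U i ⬝ᵥ A *ᵥ x) * (U i ⬝ᵥ A *ᵥ y) := by
  have hm := EI_card h hS hc
  obtain ⟨e⟩ : Nonempty ((S.filter fun v => v ⬝ᵥ A *ᵥ w = 1) ≃ Fin m) :=
    ⟨Finset.equivFinOfCardEq hm⟩
  have hp : ∀ i, (e.symm i).1 ⬝ᵥ A *ᵥ (e.symm i).1 = 1 ∧ (e.symm i).1 ⬝ᵥ A *ᵥ w = 1 := by
    intro i
    have hi := Finset.mem_filter.1 (e.symm i).2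
    exact ⟨(hS _).1 hi.1, hi.2⟩
  have hU : ∀ i j, (e.symm i).1 ⬝ᵥ A *ᵥ (e.symm j).1 = if i = j then 1 else 0 := by
    intro i j
    by_cases hij : i = j
    · subst hij
      rw [if_pos rfl, (hp i).1]
    · rw [if_neg hij]
      refine EI_orth h (hp i).1 (hp j).1 (hp i).2 (hp j).2 ?_
      intro hh
      exact hij (e.symm.injective (Subtype.ext hh))
  exact ⟨fun i => (e.symm i).1, hU, fun i => (hp i).2, EI_expand h.symm hU⟩

end Vale.Agent.P267.Elk
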