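import Vale.Agent.P267N.Elkies

/-! Elkies' theorem for an arbitrary characteristic vector. -/

open Complex Matrix MeasureTheory Filter
open scoped Real Topology

noncomputable section

namespace Vale.Agent.P267.Elk

variable {m : ℕ} {A : Matrix (Fin m) (Fin m) ℤ} {w : Fin m → ℤ}

/-- All characteristic vectors have norm at least `m`. -/
structure Cg (A : Matrix (Fin m) (Fin m) ℤ) (w : Fin m → ℤ) : Prop extends Pos A where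
  par : ∀ v, ∃ d : ℤ, v ⬝ᵥ A *ᵥ v = 2 * d + v ⬝ᵥ A *ᵥ w
  low : ∀ v, (m : ℤ) ≤ 4 * (v ⬝ᵥ A *ᵥ v) + 4 * (v ⬝ᵥ A *ᵥ w) + w ⬝ᵥ A *ᵥ w

theorem Ch.cg (h : Ch A w) : Cg A w := by
  refine ⟨h.toPos, fun v => ?_, fun v => ?_⟩
  · obtain ⟨d, -, hd⟩ := h.par v
    exact ⟨d, by linarith⟩
  · obtain ⟨d, h0, hd⟩ := h.par (-v)
    rw [mulVec_neg, neg_dotProduct_neg, neg_dotProduct, sub_neg_eq_add] at hd
    linarith [h.nrm]

theorem Cg.sq (h : Cg A w) (v : Fin m → ℤ) : bf A (cz v + hf w) (cz v + hf w) =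
    ((v ⬝ᵥ A *ᵥ v : ℤ) : ℝ) + ((v ⬝ᵥ A *ᵥ w : ℤ) : ℝ) + ((w ⬝ᵥ A *ᵥ w : ℤ) : ℝ) / 4 := by
  rw [bf_add_left, bf_add_right, bf_add_right, bf_comm h.symm (hf w) (cz v), eg1_hf, bf_cz, hf_eq,
    bf_smul_left, bf_smul_right, bf_cz]
  ring

theorem Cg.parC (h : Cg A w) (v : Fin m → ℤ) : ∃ d : ℤ,
    ((v ⬝ᵥ A *ᵥ v : ℤ) : ℂ) = 2 * d + ((v ⬝ᵥ A *ᵥ w : ℤ) : ℂ) := by
  obtain ⟨d, hd⟩ := h.par v
  exact ⟨d, by exact_mod_cast hd⟩

theorem Cg.t1 (h : Cg A w) (τ : ℂ) : th A 0 0 (τ + 1) = th A 0 (hf w) τ := by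
  refine tsum_congr fun v => ?_
  obtain ⟨d, hd⟩ := h.parC v
  refine eg1_exp d ?_
  rw [add_zero, bf_zero_right, eg1_hf, bf_cz, ofReal_div, ofReal_intCast, ofReal_intCast, hd]
  push_cast
  ring

theorem Cg.t2 (h : Cg A w) (τ : ℂ) : th A 0 (hf w) (τ + 1) = th A 0 0 τ := by
  refine tsum_congr fun v => ?_
  obtain ⟨d, hd⟩ := h.parC v
  refine eg1_exp (d + v ⬝ᵥ A *ᵥ w) ?_
  rw [add_zero, bf_zero_right, eg1_hf, bf_cz, ofReal_div, ofReal_intCast, ofReal_intCast, hd,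
    Int.cast_add]
  push_cast
  ring

theorem Cg.t3 (h : Cg A w) (τ : ℂ) : th A (hf w) 0 (τ + 1) ^ 8 = th A (hf w) 0 τ ^ 8 := by
  have e : th A (hf w) 0 (τ + 1) =
      cexp (π * I * ((w ⬝ᵥ A *ᵥ w : ℤ) : ℂ) / 4) * th A (hf w) 0 τ := by
    rw [th, th, ← tsum_mul_left]
    refine tsum_congr fun v => ?_
    obtain ⟨d, hd⟩ := h.parC v
    rw [tm, tm, ← exp_add]
    refine eg1_exp (d + v ⬝ᵥ A *ᵥ w) ?_
    rw [bf_zero_right, h.sq, ofReal_add, ofReal_add, ofReal_div, ofReal_intCast, ofReal_intCast,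
      ofReal_intCast, hd, Int.cast_add]
    generalize ((w ⬝ᵥ A *ᵥ w : ℤ) : ℂ) = a
    generalize ((v ⬝ᵥ A *ᵥ w : ℤ) : ℂ) = b
    push_cast
    ring
  have hζ : cexp (π * I * ((w ⬝ᵥ A *ᵥ w : ℤ) : ℂ) / 4) ^ 8 = 1 := by
    rw [← Complex.exp_nat_mul, ← exp_int_mul_two_pi_mul_I (w ⬝ᵥ A *ᵥ w)]
    congr 1
    generalize ((w ⬝ᵥ A *ᵥ w : ℤ) : ℂ) = a
    push_cast
    ring
  rw [e, mul_pow, hζ, one_mul]

theorem Cg.b3 (h : Cg A w) : ∃ C : ℝ, ∀ τ : ℂ, 1 ≤ τ.im →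
    ‖th A (hf w) 0 τ ^ 8‖ ≤ C * Real.exp (-(π * ((8 * m : ℕ) / 4) * τ.im)) := by
  obtain ⟨C, hC⟩ := h.toPos.tail (hf w) 0 ∅ (μ := m / 4) fun v _ => by
    have h1 : ((m : ℤ) : ℝ) ≤ _ := Int.cast_le.2 (h.low v)
    rw [h.sq]
    rw [Int.cast_add, Int.cast_add, Int.cast_mul, Int.cast_mul, Int.cast_natCast,
      Int.cast_ofNat] at h1
    linarith
  refine ⟨C ^ 8, fun τ hτ => ?_⟩
  have h2 := hC τ hτ
  rw [Finset.sum_empty, sub_zero] at h2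
  rw [norm_pow]
  refine (pow_le_pow_left₀ (norm_nonneg _) h2 8).trans_eq ?_
  rw [mul_pow, ← Real.exp_nat_mul]
  congr 2
  push_cast
  ring

theorem Pos.b8 (h : Pos A) (b : Fin m → ℝ) : ∃ C : ℝ, ∀ τ : ℂ, 1 ≤ τ.im →
    ‖th A 0 b τ ^ 8 - 1‖ ≤ C * Real.exp (-(π * τ.im)) := by
  obtain ⟨C, hC⟩ := h.eg2_one b
  refine ⟨C * (((1 + |C|) + 1) * ((1 + |C|) ^ 2 + 1) * ((1 + |C|) ^ 4 + 1)), fun τ hτ => ?_⟩
  have h1 := hC τ hτ
  set x := th A 0 b τ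
  have h2 : Real.exp (-(π * τ.im)) ≤ 1 :=
    Real.exp_le_one_iff.2 (by nlinarith [Real.pi_pos])
  have h3 : ‖x‖ ≤ 1 + |C| := by
    have := norm_add_le (x - 1) 1
    rw [sub_add_cancel, norm_one] at this
    nlinarith [le_abs_self C, abs_nonneg C, Real.exp_pos (-(π * τ.im))]
  have h4 : ∀ n : ℕ, ‖x ^ n + 1‖ ≤ (1 + |C|) ^ n + 1 := fun n =>
    (norm_add_le _ _).trans (by
      rw [norm_one, norm_pow]
      exact add_le_add (pow_le_pow_left₀ (norm_nonneg _) h3 n) le_rfl)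
  have h5 := h4 1
  rw [pow_one, pow_one] at h5
  rw [show x ^ 8 - 1 = (x - 1) * ((x + 1) * (x ^ 2 + 1) * (x ^ 4 + 1)) by ring, norm_mul,
    norm_mul, norm_mul, mul_right_comm C]
  exact mul_le_mul h1 (mul_le_mul (mul_le_mul h5 (h4 2) (norm_nonneg _) (by positivity)) (h4 4)
    (norm_nonneg _) (by positivity)) (by positivity) ((norm_nonneg _).trans h1)

theorem Pos.s8 (h : Pos A) (a : Fin m → ℝ) {t : ℝ} (ht : 0 < t) :
    th A 0 a (I / t) ^ 8 = ((√t : ℝ) : ℂ) ^ (8 * m) * th A a 0 (I * t) ^ 8 := by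
  rw [h.slaw a ht, mul_pow, ← pow_mul, mul_comm m]

theorem Cg.th_eq (h : Cg A w) :
    ∀ τ ∈ Hp, th A 0 0 τ ^ 8 = th (1 : Matrix (Fin m) (Fin m) ℤ) 0 0 τ ^ 8 := by
  have g : Cg (1 : Matrix (Fin m) (Fin m) ℤ) 1 := ch_one.cg
  obtain ⟨C1, a1⟩ := h.toPos.b8 0
  obtain ⟨D1, b1⟩ := g.toPos.b8 0
  obtain ⟨C2, a2⟩ := h.toPos.b8 (hf w)
  obtain ⟨D2, b2⟩ := g.toPos.b8 (hf 1)
  obtain ⟨C3, a3⟩ := h.b3
  obtain ⟨D3, b3⟩ := g.b3
  have key : ∀ {x y : ℂ} {C D e : ℝ}, ‖x - 1‖ ≤ C * e → ‖y - 1‖ ≤ D * e →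
      ‖x - y‖ ≤ (C + D) * e := fun {x y C D e} hx hy => by
    rw [← sub_sub_sub_cancel_right x y 1, add_mul]
    exact (norm_sub_le _ _).trans (add_le_add hx hy)
  intro τ hτ
  refine sub_eq_zero.1 (three (m := 8 * m) (f1 := fun τ => th A 0 0 τ ^ 8 - th 1 0 0 τ ^ 8)
    (f2 := fun τ => th A 0 (hf w) τ ^ 8 - th 1 0 (hf 1) τ ^ 8)
    (f3 := fun τ => th A (hf w) 0 τ ^ 8 - th 1 (hf 1) 0 τ ^ 8)
    (((h.toPos.diff _ _).pow 8).sub ((g.toPos.diff _ _).pow 8))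
    (((h.toPos.diff _ _).pow 8).sub ((g.toPos.diff _ _).pow 8))
    (((h.toPos.diff _ _).pow 8).sub ((g.toPos.diff _ _).pow 8)) (one_pow 8) (fun τ _ => ?_)
    (fun τ _ => ?_) (fun τ _ => ?_) (fun t ht => ?_) (fun t ht => ?_)
    (fun τ hτ => key (a1 τ hτ) (b1 τ hτ))
    (fun τ hτ => key (a2 τ hτ) (b2 τ hτ)) (C3 := C3 + D3) (fun τ hτ => ?_) τ hτ)
  · rw [h.t1, g.t1]
  · rw [h.t2, g.t2]
  · rw [h.t3, g.t3, one_mul]
  · rw [h.toPos.s8 0 ht, g.toPos.s8 0 ht, mul_sub]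
  · rw [h.toPos.s8 _ ht, g.toPos.s8 _ ht, mul_sub]
  · rw [add_mul]
    exact (norm_sub_le _ _).trans (add_le_add (a3 τ hτ) (b3 τ hτ))

theorem lim8 {f : ℝ → ℂ} {N : ℂ}
    (h : Tendsto (fun y : ℝ => cexp (π * y) * (f y - 1)) atTop (𝓝 N)) :
    Tendsto (fun y : ℝ => cexp (π * y) * (f y ^ 8 - 1)) atTop (𝓝 (N * 8)) := by
  have h1 : Tendsto (fun y : ℝ => ((Real.exp (-(π * y)) : ℝ) : ℂ)) atTop (𝓝 0) := by
    have := Real.tendsto_exp_neg_atTop_nhds_zero.comp (tendsto_id.const_mul_atTop Real.pi_pos)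
    exact_mod_cast (continuous_ofReal.tendsto 0).comp this
  have h2 : Tendsto f atTop (𝓝 1) := by
    have := (h1.mul h).add_const 1
    rw [zero_mul, zero_add] at this
    refine this.congr fun y => ?_
    rw [← mul_assoc, ofReal_exp, ← exp_add]
    simp
  have h3 := h.mul (((h2.add_const 1).mul ((h2.pow 2).add_const 1)).mul ((h2.pow 4).add_const 1))
  rw [show ((1 : ℂ) + 1) * (1 ^ 2 + 1) * (1 ^ 4 + 1) = 8 by norm_num] at h3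
  exact h3.congr fun y => by ring

theorem Cg.odd (h : Cg A w) {v : Fin m → ℤ} (hv : v ⬝ᵥ A *ᵥ v = 1) : v ⬝ᵥ A *ᵥ w ≠ 0 := by
  obtain ⟨d, e⟩ := h.par v
  omega

theorem Cg.basis (h : Cg A w) : ∃ U : Fin m → Fin m → ℤ,
    (∀ i j, U i ⬝ᵥ A *ᵥ U j = if i = j then 1 else 0) ∧ ∀ i, 0 < U i ⬝ᵥ A *ᵥ w := by
  obtain ⟨S, hS, l1⟩ := h.toPos.lim_card
  obtain ⟨S', hS', l2⟩ := (ch_one (m := m)).toPos.lim_card
  have e : (S.card : ℂ) * 8 = S'.card * 8 := by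
    refine tendsto_nhds_unique (lim8 l1) ((lim8 l2).congr' ?_)
    filter_upwards [eventually_gt_atTop 0] with y hy
    rw [h.th_eq (I * y) (by simpa [Hp] using hy)]
  have hc : S.card = 2 * m :=
    (Nat.cast_injective (mul_right_cancel₀ (by norm_num) e)).trans (card_id hS')
  have h1 := Finset.card_filter_add_card_filter_not (s := S) (fun v => 0 < v ⬝ᵥ A *ᵥ w)
  have hn : ∀ v ∈ S, -v ∈ S := fun v hv => (hS _).2 (by
    rw [mulVec_neg, neg_dotProduct_neg, (hS v).1 hv])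
  have h2 : (S.filter fun v => 0 < v ⬝ᵥ A *ᵥ w).card =
      (S.filter fun v => ¬ 0 < v ⬝ᵥ A *ᵥ w).card := by
    refine Finset.card_bij' (fun v _ => -v) (fun v _ => -v) (fun v hv => ?_) (fun v hv => ?_)
      (fun v _ => neg_neg v) fun v _ => neg_neg v
    · rw [Finset.mem_filter] at hv ⊢
      refine ⟨hn v hv.1, ?_⟩
      have := hv.2
      rw [neg_dotProduct]
      omega
    · rw [Finset.mem_filter] at hv ⊢
      refine ⟨hn v hv.1, ?_⟩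
      have := hv.2
      have := h.odd ((hS v).1 hv.1)
      rw [neg_dotProduct]
      omega
  obtain ⟨e⟩ : Nonempty ((S.filter fun v => 0 < v ⬝ᵥ A *ᵥ w) ≃ Fin m) :=
    ⟨Finset.equivFinOfCardEq (by omega)⟩
  have hp : ∀ i, (e.symm i).1 ⬝ᵥ A *ᵥ (e.symm i).1 = 1 ∧ 0 < (e.symm i).1 ⬝ᵥ A *ᵥ w := fun i =>
    ⟨(hS _).1 (Finset.mem_filter.1 (e.symm i).2).1, (Finset.mem_filter.1 (e.symm i).2).2⟩
  refine ⟨fun i => (e.symm i).1, fun i j => ?_, fun i => (hp i).2⟩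
  beta_reduce
  split_ifs with hij
  · rw [← hij, (hp i).1]
  · have k1 := h.toPos.zpos (sub_ne_zero.2 fun hh => hij (e.symm.injective (Subtype.ext hh)))
    have k2 : (e.symm i).1 + (e.symm j).1 ≠ 0 := fun e0 => by
      have e2 := add_pos (hp i).2 (hp j).2
      rw [← add_dotProduct, e0, zero_dotProduct] at e2
      exact lt_irrefl _ e2
    have k3 := h.toPos.zpos k2
    have k4 := zf_comm h.symm (e.symm j).1 (e.symm i).1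
    rw [mulVec_sub, sub_dotProduct, dotProduct_sub, dotProduct_sub, (hp i).1, (hp j).1] at k1
    rw [mulVec_add, add_dotProduct, dotProduct_add, dotProduct_add, (hp i).1, (hp j).1] at k3
    omega

theorem pos_of (hs : A.IsSymm) (hu : IsUnit A.det) (h0 : ∀ v, 0 ≤ v ⬝ᵥ A *ᵥ v) : Pos A := by
  have h1 : (A.map (Int.cast : ℤ → ℝ)).PosSemidef :=
    .of_dotProduct_mulVec_nonneg (isHermitian_iff_isSymm.2 (hs.map _)) fun x => ea_real h0 x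
  have e : (A.map (Int.cast : ℤ → ℝ)).det = (A.det : ℝ) := (Int.cast_det A).symm
  have h2 : (A.map (Int.cast : ℤ → ℝ)).PosDef :=
    h1.posDef_iff_det_ne_zero.2 (e ▸ Int.cast_ne_zero.2 hu.ne_zero)
  have h3 : 0 < A.det := by
    have h4 := h2.det_pos
    rw [e] at h4
    exact_mod_cast h4
  refine ⟨hs, ?_, ea_coer fun x hx => h2.dotProduct_mulVec_pos hx⟩
  rcases Int.isUnit_iff.1 hu with h | h
  · exact h
  · omega

theorem elkiesA (hs : A.IsSymm) (hu : IsUnit A.det)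
    (h : ∀ x, ∃ d : ℤ, 0 ≤ d ∧ 12 * d = 6 * (x ⬝ᵥ A *ᵥ x - x ⬝ᵥ A *ᵥ w) + w ⬝ᵥ A *ᵥ w - m) :
    ∃ U : Fin m → Fin m → ℤ,
      (∀ i j, U i ⬝ᵥ A *ᵥ U j = if i = j then 1 else 0) ∧ (∀ i, U i ⬝ᵥ A *ᵥ w = 1) ∧
      ∀ x y, x ⬝ᵥ A *ᵥ y = ∑ i, (U i ⬝ᵥ A *ᵥ x) * (U i ⬝ᵥ A *ᵥ y) := by
  obtain ⟨d0, k0, e0⟩ := h 0
  rw [zero_dotProduct, zero_dotProduct] at e0
  have h0 : ∀ v, 0 ≤ v ⬝ᵥ A *ᵥ v := fun v => by
    by_contra hn
    obtain ⟨d, hd, e⟩ := h ((d0 + 1) • v)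
    obtain ⟨d', hd', e'⟩ := h (-((d0 + 1) • v))
    rw [mulVec_neg, neg_dotProduct_neg, neg_dotProduct] at e'
    have e3 : ((d0 + 1) • v) ⬝ᵥ A *ᵥ ((d0 + 1) • v) = (d0 + 1) * ((d0 + 1) * (v ⬝ᵥ A *ᵥ v)) := by
      rw [mulVec_smul, smul_dotProduct, dotProduct_smul, smul_eq_mul, smul_eq_mul]
    have e4 : (d0 + 1) * (v ⬝ᵥ A *ᵥ v) ≤ -(d0 + 1) := by nlinarith
    nlinarith
  have hg : Cg A w := ⟨pos_of hs hu h0, fun v => ?_, fun v => ?_⟩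
  rotate_left
  · obtain ⟨d, -, e⟩ := h v
    exact ⟨d - d0, by omega⟩
  · obtain ⟨d, hd, e⟩ := h (-v)
    rw [mulVec_neg, neg_dotProduct_neg, neg_dotProduct] at e
    omega
  obtain ⟨U, h1, h2⟩ := hg.basis
  have h3 := EI_expand hs h1
  refine ⟨U, h1, ?_, h3⟩
  have h4 : ∀ i, ∃ k : ℤ, 0 ≤ k ∧ U i ⬝ᵥ A *ᵥ w = 2 * k + 1 := fun i => by
    obtain ⟨d, e⟩ := hg.par (U i)
    have := h2 i
    rw [h1, if_pos rfl] at e
    exact ⟨-d, by omega, by omega⟩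
  choose k k1 k2 using h4
  have h5 : ∀ i, U i ⬝ᵥ A *ᵥ (∑ j, k j • U j) = k i := fun i => by
    simp only [mulVec_sum, dotProduct_sum, mulVec_smul, dotProduct_smul, h1, smul_eq_mul, mul_ite,
      mul_one, mul_zero, Finset.sum_ite_eq, Finset.mem_univ, if_true]
  obtain ⟨d, hd, e⟩ := h (∑ j, k j • U j)
  rw [h3, h3 _ w, h3 w w] at e
  simp only [h5, k2] at e
  have h6 : ∑ i, (k i * k i + k i) ≤ 0 := by
    have e1 : ∑ i, (2 * k i + 1) * (2 * k i + 1) = 4 * ∑ i, (k i * k i + k i) + m := by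
      rw [Finset.mul_sum, show (m : ℤ) = ∑ _i : Fin m, 1 by simp, ← Finset.sum_add_distrib]
      exact Finset.sum_congr rfl fun i _ => by ring
    have e2 : ∑ i, k i * k i - ∑ i, k i * (2 * k i + 1) = -∑ i, (k i * k i + k i) := by
      rw [← Finset.sum_sub_distrib, ← Finset.sum_neg_distrib]
      exact Finset.sum_congr rfl fun i _ => by ring
    rw [e1, e2] at e
    omega
  intro i
  have h7 := Finset.single_le_sum (f := fun i => k i * k i + k i)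
    (fun i _ => add_nonneg (mul_self_nonneg _) (k1 i)) (Finset.mem_univ i)
  have h8 : k i = 0 := by nlinarith [mul_self_nonneg (k i), k1 i]
  rw [k2, h8]
  rfl

/-- The lattice theorem for the intersection form. -/
theorem elkiesQ {Q : Matrix (Fin m) (Fin m) ℤ} (hs : Q.IsSymm) (hu : IsUnit Q.det)
    (h : ∀ x, ∃ d : ℤ, d ≤ 0 ∧ 12 * d = 6 * (x ⬝ᵥ Q *ᵥ x - x ⬝ᵥ Q *ᵥ w) + w ⬝ᵥ Q *ᵥ w + m) :
    ∃ U : Fin m → Fin m → ℤ,
      (∀ i j, U i ⬝ᵥ Q *ᵥ U j = -(if i = j then 1 else 0)) ∧ (∀ i, U i ⬝ᵥ Q *ᵥ w = -1) ∧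
      ∀ x y, x ⬝ᵥ Q *ᵥ y = -∑ i, (U i ⬝ᵥ Q *ᵥ x) * (U i ⬝ᵥ Q *ᵥ y) := by
  obtain ⟨U, h1, h2, h3⟩ := elkiesA (A := -Q) (w := w) hs.neg
    (by rw [det_neg]; exact (isUnit_one.neg.pow _).mul hu) fun x => by
      obtain ⟨d, k, e⟩ := h x
      simp only [neg_mulVec, dotProduct_neg]
      exact ⟨-d, by omega, by omega⟩
  simp only [neg_mulVec, dotProduct_neg, neg_mul_neg] at h1 h2 h3
  exact ⟨U, fun i j => neg_eq_iff_eq_neg.1 (h1 i j), fun i => neg_eq_iff_eq_neg.1 (h2 i),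
    fun x y => neg_eq_iff_eq_neg.1 (h3 x y)⟩

end Vale.Agent.P267.Elk
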