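import Vale.Agent.P267N.EA
import Vale.Agent.P267N.EG2
import Vale.Agent.P267N.EH
import Vale.Agent.P267N.EI

/-! Theta series of positive unimodular forms. -/

open Complex Matrix MeasureTheory Filter
open scoped Real Topology

noncomputable section

namespace Vale.Agent.P267.Elk

variable {m : ℕ} {A : Matrix (Fin m) (Fin m) ℤ} {w : Fin m → ℤ}

/-- Elkies' characterisation of the standard lattice. -/
theorem elkies (hs : A.IsSymm) (hu : IsUnit A.det) (hw : w ⬝ᵥ A *ᵥ w = m)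
    (hp : ∀ v, ∃ d : ℤ, 0 ≤ d ∧ 2 * d = v ⬝ᵥ A *ᵥ v - v ⬝ᵥ A *ᵥ w) :
    ∃ U : Fin m → Fin m → ℤ,
      (∀ i j, U i ⬝ᵥ A *ᵥ U j = if i = j then 1 else 0) ∧ (∀ i, U i ⬝ᵥ A *ᵥ w = 1) ∧
      ∀ x y, x ⬝ᵥ A *ᵥ y = ∑ i, (U i ⬝ᵥ A *ᵥ x) * (U i ⬝ᵥ A *ᵥ y) := by
  have h := ch_of hs hu hw hp
  obtain ⟨S, hS, l1⟩ := h.toPos.lim_card
  obtain ⟨S', hS', l2⟩ := (ch_one (m := m)).toPos.lim_card
  have e : (S.card : ℂ) = S'.card := by
    refine tendsto_nhds_unique l1 (l2.congr' ?_)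
    filter_upwards [eventually_gt_atTop 0] with y hy
    rw [h.th_eq (I * y) (by simpa [Hp] using hy)]
  exact h.basis hS ((Nat.cast_injective e).trans (card_id hS'))

end Vale.Agent.P267.Elk
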