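import Vale.Agent.P267N.GDefs
import Vale.Agent.P267.AA

/-! P267, removing the diagonalisation theorem. -/

open scoped Manifold ContDiff Topology BoundedContinuousFunction
open Filter Metric Set

noncomputable section

namespace Vale.Agent.P267

variable {M : Type} [TopologicalSpace M] [ChartedSpace C2 M] [T2Space M]

variable {t : M → ℝ} {a : ℝ} {u k : M → M → ℂ} {G : M → M}

omit [TopologicalSpace M] [ChartedSpace C2 M] [T2Space M] in
theorem GC_div (t : M → ℝ) (a : ℝ) (u : M → M → ℂ) (p q : M) : tw t a u p / tw t a u q =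
    (fun _ => Complex.exp (a * (t q - t p))) * (u p / u q) := by
  funext x
  simp only [tw, Pi.div_apply, Pi.mul_apply]
  rw [mul_div_mul_comm, ← Complex.exp_sub]
  congr 2
  ring

omit [T2Space M] in
theorem GC_dAt (c : ℂ) (f : M → ℂ) (x : M) : dAt ((fun _ => c) * f) x = c • dAt f x :=
  congrFun (fderiv_const_smul_field (𝕜 := ℝ) (f := f ∘ (chartAt C2 x).symm) c) _

set_option linter.unusedSectionVars false

theorem tw_bundle (hu : IsBundle HolAt u) : IsBundle HolAt (tw t a u) := by
  intro p
  filter_upwards [hu p] with q hq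
  refine ⟨mul_ne_zero (Complex.exp_ne_zero _) hq.1, ?_⟩
  rw [GC_div]
  exact (holAt_const _).mul hq.2

theorem tw_per (ht : ∀ p, t (G p) = t p + 1) (hp : pull G u = u) :
    pull G (tw t a u) = tw t a u := by
  funext p x
  have e : u (G p) (G x) = u p x := congrFun (congrFun hp p) x
  simp only [pull, tw]
  rw [e, ht, ht]
  push_cast
  congr 2
  ring

theorem tw_conn {θ : M → M → C2 →L[ℝ] ℂ} (h : IsConnection G u θ) :
    IsConnection G (tw t a u) θ := by
  refine ⟨h.smooth, fun p => ?_, h.per⟩
  filter_upwards [h.compat p] with q hq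
  filter_upwards [hq] with x hx
  rw [hx, GC_div, GC_dAt, smul_smul, Pi.mul_apply, mul_inv, mul_right_comm,
    inv_mul_cancel₀ (Complex.exp_ne_zero _), one_mul]

theorem div_tw : k / tw t a u = tw t (-a) (k / u) := by
  funext p x
  simp only [tw, Pi.div_apply]
  rw [Complex.ofReal_neg, neg_mul, Complex.exp_neg, div_mul_eq_div_div_swap, div_eq_inv_mul]

theorem div_bundle (hk : IsBundle HolAt k) (hu : IsBundle HolAt u) : IsBundle HolAt (k / u) := by
  intro p
  filter_upwards [hk p, hu p] with q h1 h2
  refine ⟨div_ne_zero h1.1 h2.1, ?_⟩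
  have e : (k / u) p / (k / u) q = k p / k q / (u p / u q) := by
    funext x
    simp only [Pi.div_apply]
    rw [div_div_div_comm]
  rw [e]
  exact h1.2.div h2.2 (div_ne_zero h2.1 (hu q).self_of_nhds.1)

theorem tw_H0 (ht : ∀ p, t (G p) = t p + 1) (h : H0 G (tw t a u) ≠ ⊥) :
    ∃ s : M → ℂ, s ≠ 0 ∧ Sec u s ∧ ∀ p, s (G p) = Complex.exp a * s p := by
  rw [H0, Ne, Submodule.span_eq_bot] at h
  push Not at h
  obtain ⟨s', ⟨h1, h2⟩, h3⟩ := h
  refine ⟨fun x => Complex.exp (a * t x) * s' x, fun h0 => h3 (funext fun x => ?_), fun p => ?_,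
    fun p => ?_⟩
  · exact (mul_eq_zero.1 (congrFun h0 x)).resolve_left (Complex.exp_ne_zero _)
  · have e : (u p * fun x => Complex.exp (a * t x) * s' x) =
        (fun _ => Complex.exp (a * t p)) * (tw t a u p * s') := by
      funext x
      simp only [tw, Pi.mul_apply]
      rw [← mul_assoc, ← mul_assoc, ← mul_assoc, ← Complex.exp_add, mul_comm (u p x)]
      congr 3
      ring
    rw [e]
    exact (holAt_const _).mul (h2 p)
  · have e : s' (G p) = s' p := congrFun h1 p
    simp only
    rw [e, ht, ← mul_assoc, ← Complex.exp_add]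
    push_cast
    congr 2
    ring

end Vale.Agent.P267
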