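import Vale.Agent.P267.Stmt6
import Vale.Agent.P267.Defs

/-! P267, removing the diagonalisation theorem: definitions. -/

open scoped Manifold ContDiff Topology
open Filter Metric Set

noncomputable section

namespace Vale.Agent.P267

variable {M : Type} [TopologicalSpace M] [ChartedSpace C2 M]

/-- The Chern-Weil integrals on the quotient depend only on the bundles. -/
def PairOf (G : M ≃ₜ M) (B : (M → M → ℂ) → (M → M → ℂ) → ℂ) : Prop :=
  ∀ (u v : M → M → ℂ) (θ θ' : M → M → C2 →L[ℝ] ℂ), IsBundle SmAt u → pull G u = u →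
    IsBundle SmAt v → pull G v = v → IsConnection G u θ → IsConnection G v θ' →
    ∀ (l : ℕ) (P : Fin l → OpenPartialHomeomorph M C2) (ψ : Fin l → M → ℝ), IsPartition G P ψ →
      pairing P ψ θ θ' = B u v

omit [TopologicalSpace M] [ChartedSpace C2 M] in
/-- The twist by a flat bundle. -/
def tw (t : M → ℝ) (a : ℝ) (u : M → M → ℂ) : M → M → ℂ :=
  fun p x => Complex.exp (a * (t x - t p)) * u p x

end Vale.Agent.P267
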